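import Crest.Agent.H5.Thorp.Phi

set_option autoImplicit false
set_option linter.unusedSectionVars false

namespace Crest.Agent.H5.Thorp

open Module Equiv
open scoped InnerProductSpace

section gen
variable {G : Type} [Group G] [Fintype G] [DecidableEq G]

/-- The `ℓ¹` norm. -/
noncomputable def l1 (f : L2 G) : ℝ := ∑ x, ‖f x‖

lemma l1_nonneg (f : L2 G) : 0 ≤ l1 f := Finset.sum_nonneg fun _ _ => norm_nonneg _

lemma l1_add (f g : L2 G) : l1 (f + g) ≤ l1 f + l1 g := by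
  rw [l1, l1, l1, ← Finset.sum_add_distrib]
  exact Finset.sum_le_sum fun x _ => norm_add_le _ _

lemma l1_le (f : L2 G) : l1 f ≤ √(Fintype.card G) * ‖f‖ := by
  apply le_of_sq_le_sq _ (by positivity)
  rw [mul_pow, Real.sq_sqrt (by positivity), EuclideanSpace.norm_sq_eq, l1]
  simpa using sq_sum_le_card_mul_sum_sq (s := (Finset.univ : Finset G)) (f := fun x => ‖f x‖)

lemma l1_conv (ν : G → ℝ) (h0 : ∀ g, 0 ≤ ν g) (f : L2 G) : l1 (conv ν f) ≤ (∑ g, ν g) * l1 f := by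
  have a1 : ∀ x, ‖conv ν f x‖ ≤ ∑ g, ν g * ‖f (g⁻¹ * x)‖ := by
    intro x
    rw [conv_apply]
    refine (norm_sum_le _ _).trans (le_of_eq ?_)
    simp [abs_of_nonneg (h0 _)]
  refine (Finset.sum_le_sum fun x _ => a1 x).trans (le_of_eq ?_)
  rw [Finset.sum_comm, Finset.sum_mul]
  apply Finset.sum_congr rfl
  intro g _
  rw [← Finset.mul_sum, l1]
  congr 1
  exact Fintype.sum_equiv (Equiv.mulLeft g⁻¹) _ _ fun x => rfl

lemma l1_conv_pow (ν : G → ℝ) (h0 : ∀ g, 0 ≤ ν g) (h1 : ∑ g, ν g ≤ 1) (q : ℕ) (f : L2 G) :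
    l1 ((conv ν ^ q) f) ≤ l1 f := by
  induction q with
  | zero => simp
  | succ q ih =>
    rw [pow_succ', Module.End.mul_apply]
    refine (l1_conv ν h0 _).trans ((mul_le_of_le_one_left (l1_nonneg _) h1).trans ih)

lemma l1_pow_sub (μ ν : G → ℝ) (h0 : ∀ g, 0 ≤ ν g) (h1 : ∀ g, ν g ≤ μ g) (h2 : ∑ g, μ g = 1)
    (q : ℕ) (f : L2 G) :
    l1 ((conv μ ^ q) f - (conv ν ^ q) f) ≤ q * (1 - ∑ g, ν g) * l1 f := by
  have h3 : ∑ g, ν g ≤ 1 := h2 ▸ Finset.sum_le_sum fun g _ => h1 g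
  induction q with
  | zero => simp [l1]
  | succ q ih =>
    have e : (conv μ ^ (q + 1)) f - (conv ν ^ (q + 1)) f =
        conv μ ((conv μ ^ q) f - (conv ν ^ q) f) + conv (μ - ν) ((conv ν ^ q) f) := by
      rw [pow_succ', pow_succ', Module.End.mul_apply, Module.End.mul_apply, map_sub]
      ext x
      simp only [PiLp.sub_apply, PiLp.add_apply, conv_apply, Pi.sub_apply]
      push_cast
      simp only [sub_mul, Finset.sum_sub_distrib]
      ring
    rw [e]
    refine (l1_add _ _).trans ?_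
    have a1 := l1_conv μ (fun g => (h0 g).trans (h1 g)) ((conv μ ^ q) f - (conv ν ^ q) f)
    have a2 := l1_conv (μ - ν) (fun g => sub_nonneg.2 (h1 g)) ((conv ν ^ q) f)
    have a3 := l1_conv_pow ν h0 h3 q f
    simp only [Pi.sub_apply, Finset.sum_sub_distrib, h2] at a2
    rw [h2, one_mul] at a1
    have a4 : (1 - ∑ g, ν g) * l1 ((conv ν ^ q) f) ≤ (1 - ∑ g, ν g) * l1 f := by
      gcongr
    push_cast
    linarith

lemma level_bound (ν : G → ℝ) (k : ℕ)
    (hh : hs (EuclideanSpace.basisFun G ℂ) (conv ν ∘ₗ pr (Small (LG G) (2 ^ (16 * (k + 1))))) ≤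
      2 ^ 31 * 2 ^ (12 * k)) :
    √(Fintype.card G) * ‖(conv ν ^ 5) (pr (Small (LG G) (2 ^ (16 * k)))ᗮ (del G))‖ ≤
      √(Fintype.card G) * ‖(conv ν ^ 5) (pr (Small (LG G) (2 ^ (16 * (k + 1))))ᗮ (del G))‖ +
        2 ^ 78 / 4 ^ k := by
  set F := Small (LG G) (2 ^ (16 * k)) with hF
  set F' := Small (LG G) (2 ^ (16 * (k + 1))) with hF'
  set T := conv ν with hT
  have hFF : F ≤ F' := small_mono _ (Nat.pow_le_pow_right (by norm_num) (by omega))
  set y := pr F' (pr Fᗮ (del G)) with hy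
  have hy1 : y = pr F' (del G) - pr F (del G) := by
    have a1 : pr Fᗮ (del G) = del G - pr F (del G) := Submodule.starProjection_orthogonal_val _
    have a2 : pr F' (pr F (del G)) = pr F (del G) :=
      Submodule.starProjection_eq_self_iff.2 (hFF (F.starProjection_apply_mem _))
    rw [hy, a1, map_sub, a2]
  have hy2 : pr Fᗮ (del G) = pr F'ᗮ (del G) + y := by
    have a1 : pr Fᗮ (del G) = del G - pr F (del G) := Submodule.starProjection_orthogonal_val _
    have a2 : pr F'ᗮ (del G) = del G - pr F' (del G) := Submodule.starProjection_orthogonal_val _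
    rw [a1, a2, hy1]; abel
  set W := Fᗮ ⊓ F' with hW
  have hyW : y ∈ W := by
    refine ⟨?_, F'.starProjection_apply_mem _⟩
    have a1 : y = pr Fᗮ (del G) - pr F'ᗮ (del G) := by rw [hy2]; abel
    rw [a1]
    exact Submodule.sub_mem _ (Fᗮ.starProjection_apply_mem _)
      (Submodule.orthogonal_le hFF (F'ᗮ.starProjection_apply_mem _))
  have hWL : Inv (LG G) W := (inv_small _ _).orth.inf (inv_small _ _)
  have hWR : Inv (RG G) W := (invR_small _).orth.inf (invR_small _)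
  have hop : ∀ f ∈ W, ‖T f‖ ^ 2 ≤ 2 ^ 31 / 2 ^ (4 * k) * ‖f‖ ^ 2 := by
    intro f hf
    have := opnorm_le (EuclideanSpace.basisFun G ℂ) hWR (inf_le_right : W ≤ F') T
      (by rintro _ ⟨h, rfl⟩ x; exact conv_rho ν h x) (2 ^ (16 * k)) (by
        intro U hU hUi hU0
        by_contra hlt
        have a1 : U ≤ F := invR_le_small hUi (not_le.1 hlt).le
        apply hU0
        rw [eq_bot_iff]
        intro x hx
        exact inner_self_eq_zero.1 ((hU hx).1 x (a1 hx))) f hf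
    have a2 : ((2 ^ (16 * k) : ℕ) : ℝ) * ‖T f‖ ^ 2 ≤ 2 ^ 31 * 2 ^ (12 * k) * ‖f‖ ^ 2 :=
      this.trans (by gcongr)
    have a3 : ((2 ^ (16 * k) : ℕ) : ℝ) = 2 ^ (12 * k) * 2 ^ (4 * k) := by
      push_cast; rw [← pow_add]; congr 1; ring
    rw [a3] at a2
    rw [div_mul_eq_mul_div, le_div_iff₀ (by positivity)]
    have a4 : (0 : ℝ) < 2 ^ (12 * k) := by positivity
    nlinarith
  have hit : ∀ j, (T ^ (j + 1)) y ∈ W ∧
      ‖(T ^ (j + 1)) y‖ ^ 2 ≤ (2 ^ 31 / 2 ^ (4 * k)) ^ j * ‖T y‖ ^ 2 := by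
    intro j
    induction j with
    | zero => exact ⟨by simpa using conv_mem ν hWL hyW, by simp⟩
    | succ j ih =>
      rw [pow_succ' T (j + 1), Module.End.mul_apply]
      refine ⟨conv_mem ν hWL ih.1, (hop _ ih.1).trans ?_⟩
      rw [pow_succ' (2 ^ 31 / 2 ^ (4 * k) : ℝ) j, mul_assoc]
      gcongr
      exact ih.2
  have h1 : (Fintype.card G : ℝ) * ‖T y‖ ^ 2 ≤ 2 ^ 31 * 2 ^ (12 * k) := by
    have a1 := hs_eq ((T ∘ₗ pr F') ∘ₗ pr Fᗮ) fun h f => by
      simp only [LinearMap.comp_apply]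
      rw [← conv_rho]
      congr 1
      exact (congrArg _ ((invR_small _).orth.proj_comm ⟨h, rfl⟩ f)).trans
        ((invR_small _).proj_comm ⟨h, rfl⟩ _)
    have a2 := hs_comp_le (EuclideanSpace.basisFun G ℂ) (T ∘ₗ pr F') (pr Fᗮ) (pr_le _)
    rw [a1] at a2
    exact a2.trans hh
  have h2 : √(Fintype.card G) * ‖(T ^ 5) y‖ ≤ 2 ^ 78 / 4 ^ k := by
    apply le_of_sq_le_sq _ (by positivity)
    rw [mul_pow, Real.sq_sqrt (by positivity)]
    calc _ ≤ (Fintype.card G : ℝ) * ((2 ^ 31 / 2 ^ (4 * k)) ^ 4 * ‖T y‖ ^ 2) := by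
          gcongr; exact (hit 4).2
      _ = (2 ^ 31 / 2 ^ (4 * k)) ^ 4 * ((Fintype.card G : ℝ) * ‖T y‖ ^ 2) := by ring
      _ ≤ (2 ^ 31 / 2 ^ (4 * k)) ^ 4 * (2 ^ 31 * 2 ^ (12 * k)) := by gcongr
      _ = 2 ^ 155 / (4 ^ k) ^ 2 := by
          have : (4 : ℝ) ^ k = 2 ^ (2 * k) := by rw [pow_mul]; norm_num
          rw [this]
          field_simp
          ring
      _ ≤ _ := by
          rw [div_pow]; gcongr; norm_num
  rw [hy2, map_add]
  have h3 := norm_add_le ((T ^ 5) (pr F'ᗮ (del G))) ((T ^ 5) y)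
  have h4 : 0 ≤ √(Fintype.card G : ℝ) := Real.sqrt_nonneg _
  nlinarith

lemma tele (ν : G → ℝ) (k₀ : ℕ)
    (hh : ∀ k, k₀ ≤ k → hs (EuclideanSpace.basisFun G ℂ)
      (conv ν ∘ₗ pr (Small (LG G) (2 ^ (16 * (k + 1))))) ≤ 2 ^ 31 * 2 ^ (12 * k)) :
    √(Fintype.card G) * ‖(conv ν ^ 5) (pr (Small (LG G) (2 ^ (16 * k₀)))ᗮ (del G))‖ ≤
      2 ^ 79 / 4 ^ k₀ := by
  have : ∀ j k, k₀ ≤ k → Fintype.card G ≤ k + j →
      √(Fintype.card G) * ‖(conv ν ^ 5) (pr (Small (LG G) (2 ^ (16 * k)))ᗮ (del G))‖ ≤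
        2 ^ 79 / 4 ^ k := by
    intro j
    induction j with
    | zero =>
      intro k _ hk
      have a1 : Small (LG G) (2 ^ (16 * k)) = ⊤ := by
        rw [eq_top_iff]
        apply le_small (fun _ _ _ _ => Submodule.mem_top)
        rw [finrank_top, finrank_euclideanSpace]
        have := Nat.lt_two_pow_self (n := 16 * k)
        omega
      have a2 : pr (Small (LG G) (2 ^ (16 * k)))ᗮ (del G) = 0 := by
        apply (Submodule.starProjection_apply_eq_zero_iff _).2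
        rw [Submodule.orthogonal_orthogonal, a1]; trivial
      rw [a2, map_zero, norm_zero, mul_zero]; positivity
    | succ j ih =>
      intro k hk hk'
      have a1 := level_bound ν k (hh k hk)
      have a2 := ih (k + 1) (by omega) (by omega)
      have a3 : (2 : ℝ) ^ 79 / 4 ^ (k + 1) + 2 ^ 78 / 4 ^ k ≤ 2 ^ 79 / 4 ^ k := by
        rw [pow_succ 4 k]
        have : (0 : ℝ) < 4 ^ k := by positivity
        field_simp
        norm_num
      linarith
  exact this (Fintype.card G) k₀ le_rfl (by omega)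

lemma bad_le (S : Subgroup G) [DecidablePred (· ∈ S)] (μ : G → ℝ) (c : ℝ)
    (hc : (Fintype.card S : ℝ) = c) (η : ℝ)
    (hη : ∀ f : G → ℝ, (∀ g, |f g| ≤ 1) → (∀ g x, g⁻¹ * x ∈ S → f g = f x) →
      ∑ g, μ g * f g - (∑ g, f g) / Fintype.card G ≤ η) :
    ∑ x, (if 2 * c / Fintype.card G < ∑ g, (if g⁻¹ * x ∈ S then μ g else 0) then μ x else 0)
      ≤ 2 * η := by
  set M : G → ℝ := fun x => ∑ g, (if g⁻¹ * x ∈ S then μ g else 0) with hM
  have hMc : ∀ g x, g⁻¹ * x ∈ S → M g = M x := by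
    intro g x h
    apply Finset.sum_congr rfl
    intro y _
    have : y⁻¹ * x = (y⁻¹ * g) * (g⁻¹ * x) := by group
    rw [this]
    simp only [S.mul_mem_cancel_right h]
  set f : G → ℝ := fun x => if 2 * c / Fintype.card G < M x then 1 else 0 with hf
  have hfc : ∀ g x, g⁻¹ * x ∈ S → f g = f x := fun g x h => by simp only [hf, hMc g x h]
  have h1 := hη f (fun g => by simp only [hf]; split_ifs <;> simp) hfc
  have hG : (0 : ℝ) < Fintype.card G := by exact_mod_cast Fintype.card_pos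
  have hc0 : 0 < c := by rw [← hc]; exact_mod_cast Fintype.card_pos
  have h2 : ∑ x, f x * M x = c * ∑ g, μ g * f g := by
    simp only [hM, Finset.mul_sum]
    rw [Finset.sum_comm]
    apply Finset.sum_congr rfl
    intro g _
    have a1 : ∀ x, f x * (if g⁻¹ * x ∈ S then μ g else 0) =
        (if g⁻¹ * x ∈ S then 1 else 0) * (μ g * f g) := by
      intro x
      split_ifs with h
      · rw [hfc g x h]; ring
      · simp
    simp_rw [a1]
    rw [← Finset.sum_mul]
    congr 1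
    rw [Fintype.sum_equiv (Equiv.mulLeft g⁻¹) (fun x => if g⁻¹ * x ∈ S then (1 : ℝ) else 0)
      (fun x => if x ∈ S then (1 : ℝ) else 0) fun x => rfl, ← hc]
    simp [Fintype.card_subtype]
  have h3 : ∑ x, f x * (2 * c / Fintype.card G) ≤ ∑ x, f x * M x := by
    apply Finset.sum_le_sum
    intro x _
    simp only [hf]
    split_ifs with h
    · linarith
    · simp
  rw [← Finset.sum_mul, h2] at h3
  have h4 : (∑ x, f x) / Fintype.card G * 2 ≤ ∑ g, μ g * f g := by
    have : c * ((∑ x, f x) / Fintype.card G * 2) ≤ c * ∑ g, μ g * f g := by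
      refine le_trans (le_of_eq ?_) h3
      ring
    exact le_of_mul_le_mul_left this hc0
  have h5 : ∑ x, (if 2 * c / Fintype.card G < M x then μ x else 0) = ∑ g, μ g * f g := by
    apply Finset.sum_congr rfl
    intro x _
    simp [hf]
  rw [h5]
  linarith

end gen

end Crest.Agent.H5.Thorp
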