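import Crest.Agent.H5.Thorp.Boot

set_option autoImplicit false
set_option linter.unusedSectionVars false

namespace Crest.Agent.H5.Thorp

open Module Equiv
open scoped InnerProductSpace

variable {X : Type} [Fintype X] [DecidableEq X]

variable (X) in
/-- The constant function. -/
noncomputable def one : L2 (Perm X) := WithLp.toLp 2 fun _ => 1

@[simp] lemma one_apply (g : Perm X) : one X g = 1 := rfl

lemma norm_sg (g : Perm X) : ‖sg g‖ = 1 := by
  rcases Int.units_eq_one_or (Perm.sign g) with h | h <;> simp [sg, h]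

lemma conj_sg (g : Perm X) : (starRingEnd ℂ) (sg g) = sg g := by simp [sg]

lemma sum_sg {a b : X} (hab : a ≠ b) : ∑ g : Perm X, sg g = 0 := by
  have h1 : ∑ g : Perm X, sg (swap a b * g) = ∑ g : Perm X, sg g :=
    Fintype.sum_equiv (Equiv.mulLeft (swap a b)) _ _ fun _ => rfl
  have h2 : sg (swap a b) = -1 := by rw [sg, Perm.sign_swap hab]; simp
  simp only [sg_mul, h2, neg_mul, one_mul, Finset.sum_neg_distrib] at h1
  linear_combination (-1 / 2 : ℂ) * h1

lemma inv_one : Inv (LG (Perm X)) (Submodule.span ℂ {one X}) := by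
  rw [inv_LG]
  intro h f hf
  obtain ⟨c, rfl⟩ := Submodule.mem_span_singleton.1 hf
  have : lam h (c • one X) = c • one X := by ext g; simp
  rw [this]; exact hf

lemma lev_zero : Lev X 0 ≤ Submodule.span ℂ {one X} := by
  apply Submodule.span_le.2
  rintro _ ⟨⟨a, b⟩, rfl⟩
  apply Submodule.subset_span
  ext g
  simp [Subsingleton.elim _ b]

lemma small_low {m : ℕ} (e : Fin m × Bool ≃ X) {Y : ℕ} (hY1 : 1 ≤ Y) (hY : Y < m) (hm : 3 ≤ m) :
    pr (Small (LG (Perm X)) Y)ᗮ (del _) =
      del _ - ((Fintype.card (Perm X) : ℂ)⁻¹) • (one X + Sg (one X)) := by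
  have : Nonempty X := ⟨e (⟨0, by omega⟩, false)⟩
  have hab : e (⟨0, by omega⟩, false) ≠ e (⟨0, by omega⟩, true) := by simp
  have hG : (Fintype.card (Perm X) : ℂ) ≠ 0 := by exact_mod_cast Fintype.card_ne_zero
  have h1 := small_le_lev e (Y := Y) (j₀ := 1)
    (fun j a b => hY.trans_le (by simpa using choose_uni a b)) (by omega)
  have h2 : Small (LG (Perm X)) Y ≤
      Submodule.span ℂ {one X} ⊔ (Submodule.span ℂ {one X}).map Sg :=
    h1.trans (sup_le_sup lev_zero (Submodule.map_mono lev_zero))
  have h3 : finrank ℂ (Submodule.span ℂ {one X}) ≤ Y := by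
    refine le_trans ?_ hY1
    simpa using finrank_span_le_card (R := ℂ) ({one X} : Set (L2 (Perm X)))
  apply Submodule.eq_starProjection_of_mem_orthogonal
  · intro u hu
    obtain ⟨y, hy, _, ⟨z, hz, rfl⟩, rfl⟩ := Submodule.mem_sup.1 (h2 hu)
    obtain ⟨c, rfl⟩ := Submodule.mem_span_singleton.1 hy
    obtain ⟨c', rfl⟩ := Submodule.mem_span_singleton.1 hz
    have a1 : ⟪one X, one X⟫_ℂ = Fintype.card (Perm X) := by
      simp only [PiLp.inner_apply, one_apply, RCLike.inner_apply, map_one, mul_one]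
      simp
    have a2 : ⟪one X, Sg (one X)⟫_ℂ = 0 := by
      simpa [PiLp.inner_apply, Sg_apply] using sum_sg hab
    have a3 : ⟪Sg (one X), one X⟫_ℂ = 0 := by
      simpa [PiLp.inner_apply, Sg_apply, conj_sg] using sum_sg hab
    have a4 : ⟪Sg (one X), Sg (one X)⟫_ℂ = Fintype.card (Perm X) := by
      simp only [PiLp.inner_apply, Sg_apply, one_apply, mul_one, RCLike.inner_apply, conj_sg, sg_sq]
      simp
    have a5 : ⟪one X, del (Perm X)⟫_ℂ = 1 := by
      rw [← inner_conj_symm, inner_del]; simp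
    have a6 : ⟪Sg (one X), del (Perm X)⟫_ℂ = 1 := by
      rw [← inner_conj_symm, inner_del]; simp [Sg_apply, sg]
    rw [map_smul]
    simp only [inner_add_left, inner_smul_left, inner_sub_right, inner_smul_right, inner_add_right,
      a1, a2, a3, a4, a5, a6]
    field_simp
    ring
  · rw [Submodule.orthogonal_orthogonal, sub_sub_cancel]
    refine Submodule.smul_mem _ _ (Submodule.add_mem _ ?_ ?_)
    · exact le_small inv_one h3 (Submodule.mem_span_singleton_self _)
    · exact le_small inv_one.sg ((Submodule.finrank_map_le _ _).trans h3)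
        (Submodule.mem_map_of_mem (Submodule.mem_span_singleton_self _))

lemma ofSub_comm (p q : X → Prop) [DecidablePred p] [DecidablePred q] (h : ∀ x, p x → ¬ q x)
    (a : Perm {x // p x}) (b : Perm {x // q x}) :
    Perm.ofSubtype a * Perm.ofSubtype b = Perm.ofSubtype b * Perm.ofSubtype a := by
  apply Perm.Disjoint.commute
  intro x
  by_cases hx : p x
  · right; exact Perm.ofSubtype_apply_of_not_mem _ (h x hx)
  · left; exact Perm.ofSubtype_apply_of_not_mem _ hx

theorem boot (p : Fin 16 → X → Prop) [∀ i, DecidablePred (p i)]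
    (hdisj : ∀ i j x, p i x → p j x → i = j) {k : ℕ} (hk : 42 ≤ k + 1)
    (e : ∀ i, Fin (2 ^ k) × Bool ≃ {x // p i x}) {m : ℕ} (eX : Fin m × Bool ≃ X) (hm : 3 ≤ m)
    (k₀ : ℕ) (hk₀ : 2 ^ (16 * k₀) < m) (μ : Perm X → ℝ) (h0 : ∀ g, 0 ≤ μ g) (h1 : ∑ g, μ g = 1)
    (hsg : ∑ g, (μ g : ℂ) * sg g = 0) (η : ℝ)
    (hη : ∀ i, ∀ f : Perm X → ℝ, (∀ g, |f g| ≤ 1) →
      (∀ g g' : Perm X, (∀ x, ¬ p i x → g x = g' x) → f g = f g') →
      ∑ g, μ g * f g - (∑ g, f g) / Fintype.card (Perm X) ≤ η) :
    l1 ((conv μ ^ 5) (del _) - ((Fintype.card (Perm X) : ℂ)⁻¹) • one X) ≤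
      480 * η + 2 ^ 79 / 4 ^ k₀ := by
  classical
  set ι : ∀ i, Perm {x // p i x} →* Perm X := fun i => Perm.ofSubtype with hι
  have hinj : ∀ i, Function.Injective (ι i) := fun i => Perm.ofSubtype_injective
  set bad : Fin 16 → Perm X → Prop := fun i x =>
    2 * (Fintype.card (Perm {x // p i x}) : ℝ) / Fintype.card (Perm X) <
      ∑ g, (if g⁻¹ * x ∈ (ι i).range then μ g else 0) with hbad
  have hb : ∀ i, ∑ x, (if bad i x then μ x else 0) ≤ 2 * η := by
    intro i
    apply bad_le (ι i).range μ _ _ η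
    · intro f hf hf'
      apply hη i f hf
      intro g g' hg
      apply hf'
      rw [hι, Perm.mem_range_ofSubtype_iff]
      intro x hx
      by_contra hx'
      apply Perm.mem_support.1 hx
      rw [Perm.mul_apply, ← hg x hx']; simp
    · congr 1
      convert Fintype.card_congr (MonoidHom.ofInjective (hinj i)).toEquiv.symm
  set ν : Perm X → ℝ := fun g => if ∀ i, ¬ bad i g then μ g else 0 with hν
  have n0 : ∀ g, 0 ≤ ν g := fun g => by simp only [hν]; split_ifs <;> simp [h0]
  have n1 : ∀ g, ν g ≤ μ g := fun g => by simp only [hν]; split_ifs <;> simp [h0]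
  have n2 : ∑ g, ν g ≤ 1 := h1 ▸ Finset.sum_le_sum fun g _ => n1 g
  have n3 : 1 - ∑ g, ν g ≤ 32 * η := by
    have a1 : ∀ g, μ g - ν g ≤ ∑ i, (if bad i g then μ g else 0) := by
      intro g
      simp only [hν]
      split_ifs with h
      · simp [h]
      · push Not at h
        obtain ⟨i, hi⟩ := h
        refine le_trans ?_ (Finset.single_le_sum (f := fun i => if bad i g then μ g else 0)
          (fun j _ => by split_ifs <;> simp [h0]) (Finset.mem_univ i))
        simp [hi]
    have a2 := Finset.sum_le_sum fun g (_ : g ∈ Finset.univ) => a1 g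
    rw [Finset.sum_sub_distrib, h1, Finset.sum_comm] at a2
    have a3 := Finset.sum_le_sum fun i (_ : i ∈ Finset.univ) => hb i
    simp only [Finset.sum_const, Finset.card_univ, Fintype.card_fin, nsmul_eq_mul] at a3
    push_cast at a3
    linarith
  have n4 : ∀ i x, ∑ g, (if g⁻¹ * x ∈ (ι i).range then ν g else 0) ≤
      2 * Fintype.card (Perm {x // p i x}) / Fintype.card (Perm X) := by
    intro i x
    by_cases hx : bad i x
    · have : ∀ g, (if g⁻¹ * x ∈ (ι i).range then ν g else 0) = 0 := by
        intro g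
        split_ifs with h
        · have : bad i g := by
            simp only [hbad] at hx ⊢
            refine hx.trans_eq (Finset.sum_congr rfl fun y _ => ?_)
            have : y⁻¹ * x = (y⁻¹ * g) * (g⁻¹ * x) := by group
            rw [this]
            simp only [(ι i).range.mul_mem_cancel_right h]
          simp only [hν]
          rw [if_neg fun h => h i this]
        · rfl
      simp only [this, Finset.sum_const_zero]
      positivity
    · simp only [hbad, not_lt] at hx
      refine le_trans (Finset.sum_le_sum fun g _ => ?_) hx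
      split_ifs
      · exact n1 g
      · exact le_rfl
  set H : Fin 16 → Subgroup (L2 (Perm X) ≃ₗᵢ[ℂ] L2 (Perm X)) := fun i => (lam.comp (ι i)).range
    with hH
  have hc : ∀ i j, i ≠ j → ∀ k ∈ H i, ∀ k' ∈ H j, ∀ x, k' (k x) = k (k' x) := by
    rintro i j hij _ ⟨a, rfl⟩ _ ⟨b, rfl⟩ x
    simp only [MonoidHom.comp_apply, ← lam_mul, hι]
    rw [ofSub_comm (p i) (p j) (fun x a b => hij (hdisj i j x a b))]
  have t1 := tele ν k₀ fun k' _ => by
    have a1 := hs_small H (2 ^ (k' + 1)) hc (EuclideanSpace.basisFun _ ℂ) (conv ν)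
      (4 * (2 ^ (k' + 1)) ^ 12) (fun i => by
        refine (hs_sub (ι i) (hinj i) ν n0 n2 (n4 i) _).trans ?_
        have := phi_pow hk (e i) (2 ^ (k' + 1)) Nat.one_le_two_pow
        have : (finrank ℂ (Small (LG (Perm {x // p i x})) (2 ^ (k' + 1))) : ℝ) ≤
          2 * (2 ^ (k' + 1)) ^ 12 := by exact_mod_cast this
        linarith) (by positivity) (List.finRange 16) (LG _)
        (by rintro i _ ⟨a, rfl⟩; exact ⟨_, rfl⟩) (2 ^ (16 * (k' + 1))) (by
          rw [List.toFinset_finRange, Finset.card_univ, Fintype.card_fin, mul_comm, pow_mul]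
          exact Nat.pow_lt_pow_left (by omega) (by norm_num))
    refine a1.trans (le_of_eq ?_)
    rw [List.length_finRange]; ring
  rw [small_low eX Nat.one_le_two_pow hk₀ hm] at t1
  set δ' := del (Perm X) - ((Fintype.card (Perm X) : ℂ)⁻¹) • (one X + Sg (one X)) with hδ
  have c1 : conv μ (one X) = one X := by
    ext x
    simp only [conv_apply, one_apply, mul_one]
    exact_mod_cast h1
  have c2 : conv μ (Sg (one X)) = 0 := by
    ext x
    simp only [conv_apply, Sg_apply, one_apply, mul_one, sg_mul, sg_inv, ← mul_assoc,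
      ← Finset.sum_mul, hsg]
    simp
  have c3 : ∀ q, (conv μ ^ q) (one X) = one X := by
    intro q
    induction q with
    | zero => rfl
    | succ q ih => rw [pow_succ, Module.End.mul_apply, c1, ih]
  have c4 : (conv μ ^ 5) (del _) - ((Fintype.card (Perm X) : ℂ)⁻¹) • one X =
      ((conv μ ^ 5) δ' - (conv ν ^ 5) δ') + (conv ν ^ 5) δ' := by
    rw [sub_add_cancel, hδ, map_sub, map_smul, map_add, c3, pow_succ (conv μ) 4,
      Module.End.mul_apply _ _ (Sg _), c2, map_zero, add_zero]
  have c5 : l1 δ' ≤ 3 := by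
    have hG : (0 : ℝ) < Fintype.card (Perm X) := by exact_mod_cast Fintype.card_pos
    have a1 : ∀ g, ‖δ' g‖ ≤ (if g = 1 then 1 else 0) + 2 / Fintype.card (Perm X) := by
      intro g
      rw [hδ, PiLp.sub_apply]
      refine (norm_sub_le _ _).trans (add_le_add ?_ ?_)
      · simp only [del, EuclideanSpace.single, PiLp.single_apply]
        split_ifs <;> simp
      · rw [PiLp.smul_apply, norm_smul, norm_inv, Complex.norm_natCast, inv_mul_eq_div]
        gcongr
        rw [PiLp.add_apply]
        refine (norm_add_le _ _).trans (le_of_eq ?_)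
        simp [Sg_apply, norm_sg]; norm_num
    refine (Finset.sum_le_sum fun g _ => a1 g).trans (le_of_eq ?_)
    rw [Finset.sum_add_distrib]
    simp only [Finset.sum_ite_eq', Finset.mem_univ, if_true, Finset.sum_const, Finset.card_univ,
      nsmul_eq_mul]
    field_simp
    norm_num
  rw [c4]
  refine (l1_add _ _).trans (add_le_add ?_ ((l1_le _).trans t1))
  refine (l1_pow_sub μ ν n0 n1 h1 5 δ').trans ?_
  have := l1_nonneg δ'
  push_cast
  nlinarith

end Crest.Agent.H5.Thorp
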