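import Crest.Agent.H5.Thorp.Law
import Crest.Prelude.Def_Shuffle

set_option autoImplicit false
set_option linter.unusedSectionVars false

namespace Crest.Agent.H5.Thorp

open Finset Equiv Crest.ProbabilityR.Shuffle
open scoped BigOperators

/-- Cutting the deck. -/
def E1 (m : ℕ) : Fin m × Bool ≃ Fin (2 * m) where
  toFun x := ⟨x.1.val + x.2.toNat * m, by
    have := x.1.isLt; cases x.2 <;> simp <;> omega⟩
  invFun y := (⟨y.val % m, Nat.mod_lt _ (by have := y.isLt; omega)⟩, decide (m ≤ y.val))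
  left_inv := by
    rintro ⟨⟨u, hu⟩, β⟩
    cases β <;> simp [Nat.mod_eq_of_lt hu, hu]
  right_inv := by
    rintro ⟨y, hy⟩
    ext
    by_cases h : m ≤ y
    · simp [h, Nat.mod_eq_sub_mod h, Nat.mod_eq_of_lt (show y - m < m by omega)]
    · simp [h, Nat.mod_eq_of_lt (show y < m by omega)]

/-- Interleaving the deck. -/
def E2 (m : ℕ) : Fin m × Bool ≃ Fin (2 * m) where
  toFun x := ⟨2 * x.1.val + x.2.toNat, by
    have := x.1.isLt; have := Bool.toNat_le x.2; omega⟩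
  invFun y := (⟨y.val / 2, by have := y.isLt; omega⟩, decide (y.val % 2 = 1))
  left_inv := by
    rintro ⟨⟨u, hu⟩, β⟩
    cases β <;> simp
    omega
  right_inv := by
    rintro ⟨y, hy⟩
    ext
    by_cases h : y % 2 = 1 <;> simp [h] <;> omega

/-- The concrete shuffle. -/
def sh (d : ℕ) : Sh (Fin (2 ^ d)) (Fin (2 * 2 ^ d)) d where
  e₁ := E1 _
  e₂ := E2 _
  key k x := x.val % 2 ^ k
  key' k u := u.val % 2 ^ k
  h1 k u b := by
    show (2 * u.val + b.toNat) % 2 ^ (k + 1) = _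
    rw [pow_succ', Nat.mod_mul]
    cases b <;> simp [Nat.add_mod, Nat.mul_add_div] <;> omega
  h2 k hk u β := by
    show (u.val + β.toNat * 2 ^ d) % 2 ^ k = _
    obtain ⟨j, hj⟩ := (Nat.pow_dvd_pow 2 hk).mul_left β.toNat
    rw [hj, Nat.add_mul_mod_self_left]
  h0 x := by simp [Nat.mod_one]
  hinj x y h := by
    have h1 : x.val < 2 ^ (d + 1) := by rw [pow_succ']; exact x.isLt
    have h2 : y.val < 2 ^ (d + 1) := by rw [pow_succ']; exact y.isLt
    simp only [Nat.mod_eq_of_lt h1, Nat.mod_eq_of_lt h2] at h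
    exact Fin.ext h
  htop u β := by
    have h1 : (E1 (2 ^ d) (u, β)).val < 2 ^ (d + 1) := by
      rw [pow_succ']; exact (E1 (2 ^ d) (u, β)).isLt
    rw [Nat.mod_eq_of_lt h1]
    show (u.val + β.toNat * 2 ^ d) / 2 ^ d = _
    rw [Nat.add_mul_div_right _ _ (by positivity), Nat.div_eq_of_lt u.isLt, zero_add]

lemma σ_eq (d : ℕ) (c : Fin (2 ^ d) → Bool) (x : Fin (2 * 2 ^ d)) :
    (sh d).σ c x = stepPos (2 ^ d) c x := by
  ext
  have : ∀ b : Bool, b.toNat = if b = true then 1 else 0 := by intro b; cases b <;> simp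
  show 2 * (x.val % 2 ^ d) + (xor (decide (2 ^ d ≤ x.val)) _).toNat = _
  rw [this]
  rfl

lemma uniformProb_eq {Ω : Type} [Fintype Ω] (E : Set Ω) [DecidablePred (· ∈ E)] :
    Crest.FinProb.uniformProb E = 𝔼 ω, if ω ∈ E then (1 : ℝ) else 0 := by
  rw [Fintype.expect_eq_sum_div_card, Crest.FinProb.uniformProb]
  simp only [sum_boole]
  congr

lemma prob_eq (d t : ℕ) : ∀ g : Perm (Fin (2 * 2 ^ d)),
    Crest.FinProb.uniformProb {cs : Fin t → Fin (2 ^ d) → Bool | iterPos (2 ^ d) t cs = ⇑g} =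
      (sh d).law t g := by
  classical
  induction t with
  | zero =>
    intro g
    rw [uniformProb_eq]
    have : ∀ cs : Fin 0 → Fin (2 ^ d) → Bool, iterPos (2 ^ d) 0 cs = ⇑g ↔ g = 1 := by
      intro cs
      constructor
      · intro h; ext x; rw [← h]; rfl
      · rintro rfl; rfl
    simp [this, Sh.law]
  | succ t ih =>
    intro g
    rw [uniformProb_eq, Sh.law,
      ← Fintype.expect_equiv (Fin.snocEquiv fun _ => Fin (2 ^ d) → Bool)
        (fun x => if iterPos (2 ^ d) t x.2 = ⇑(((sh d).σ x.1)⁻¹ * g) then (1 : ℝ) else 0) _ ?_,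
      ← univ_product_univ, expect_product]
    · refine expect_congr rfl fun c _ => ?_
      rw [← ih, uniformProb_eq]
      rfl
    · rintro ⟨c, cs⟩
      congr 1
      simp only [Set.mem_ofPred_eq, funext_iff, iterPos, Fin.snocEquiv_apply, Fin.snoc_last,
        Fin.snoc_castSucc, ← σ_eq, Perm.mul_apply, Perm.eq_inv_iff_eq]

lemma tv_eq (d t : ℕ) : tvFromUniform (2 ^ d) t =
    1 / 2 * ∑ g, |(sh d).law t g - 1 / Fintype.card (Perm (Fin (2 * 2 ^ d)))| := by
  simp only [tvFromUniform, prob_eq, Fintype.card_perm, Fintype.card_fin]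

theorem lower (d t : ℕ) :
    1 - (2 : ℝ) ^ (2 ^ d * t) / ((2 * 2 ^ d).factorial : ℝ) ≤ tvFromUniform (2 ^ d) t := by
  classical
  set A : Finset (Perm (Fin (2 * 2 ^ d))) := univ.filter fun g =>
    ∃ cs : Fin t → Fin (2 ^ d) → Bool, iterPos (2 ^ d) t cs = ⇑g with hA
  have h1 : A.card ≤ 2 ^ (2 ^ d * t) := by
    calc A.card ≤ (univ.image (iterPos (2 ^ d) t)).card :=
          card_le_card_of_injOn (fun g => ⇑g) (fun g hg => by simpa [hA] using hg)
            fun g _ g' _ h => Equiv.coe_fn_injective h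
      _ ≤ _ := card_image_le
      _ = _ := by simp [pow_mul]
  have h2 : ∀ g, g ∉ A → (sh d).law t g = 0 := by
    intro g hg
    rw [← prob_eq, uniformProb_eq]
    apply expect_eq_zero
    intro cs _
    rw [if_neg]
    intro h
    exact hg (mem_filter.2 ⟨mem_univ _, cs, h⟩)
  have h3 := (sh d).law_sum t
  rw [tv_eq, Fintype.card_perm, Fintype.card_fin]
  have hN : (0 : ℝ) < ((2 * 2 ^ d).factorial : ℝ) := by exact_mod_cast Nat.factorial_pos _
  set N : ℝ := ((2 * 2 ^ d).factorial : ℝ) with hNd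
  have h4 : ∀ g, ((sh d).law t g + 1 / N) - (if g ∈ A then 2 / N else 0) ≤
      |(sh d).law t g - 1 / N| := by
    intro g
    split_ifs with h
    · refine le_trans (le_of_eq (by ring)) (le_abs_self _)
    · rw [h2 g h]; simp [abs_of_pos hN]
  have h5 := sum_le_sum fun g (_ : g ∈ univ) => h4 g
  simp only [sum_sub_distrib, sum_add_distrib, h3, sum_const, card_univ, Fintype.card_perm,
    Fintype.card_fin, nsmul_eq_mul, sum_ite_mem, univ_inter] at h5
  rw [← hNd, mul_one_div_cancel hN.ne'] at h5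
  have h6 : (A.card : ℝ) * (2 / N) ≤ 2 * (2 ^ (2 ^ d * t) / N) := by
    have : (A.card : ℝ) ≤ 2 ^ (2 ^ d * t) := by exact_mod_cast h1
    calc _ ≤ (2 : ℝ) ^ (2 ^ d * t) * (2 / N) := by gcongr
      _ = _ := by ring
  linarith

lemma num_aux (j h T : ℕ) (n : ℝ) (n1 : n = 2 ^ (j + 46)) (n2 : n = 64 * (h : ℝ))
    (hT : 45 * (6 * (j + 46)) ≤ T) :
    n * (n ^ 3 / 2 * (n * (63 / 64) ^ T +
      32 * (2 ^ (h + 1) * (3 / 4) ^ (4 * h))) + 1 / (2 * n ^ 2)) ≤
      (1 / 2) ^ j + 32 * 64 ^ 4 * ((h : ℝ) ^ 4 * (81 / 128) ^ h) := by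
  have n0 : 0 < n := by rw [n1]; positivity
  have a1 : (63 / 64 : ℝ) ^ T ≤ 1 / n ^ 6 := by
    calc (63 / 64 : ℝ) ^ T ≤ (63 / 64 : ℝ) ^ (45 * (6 * (j + 46))) :=
          pow_le_pow_of_le_one (by norm_num) (by norm_num) hT
      _ ≤ (1 / 2) ^ (6 * (j + 46)) := by
          rw [pow_mul]
          exact pow_le_pow_left₀ (by positivity) (by norm_num) _
      _ = _ := by rw [n1, one_div_pow, ← pow_mul, mul_comm]
  have a2 : (2 : ℝ) ^ (h + 1) * (3 / 4) ^ (4 * h) = 2 * (81 / 128) ^ h := by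
    rw [pow_succ', pow_mul, mul_assoc, ← mul_pow]; norm_num
  have a3 : 1 / n ≤ (1 / 2) ^ j := by
    rw [n1, ← one_div_pow]
    exact pow_le_pow_of_le_one (by norm_num) (by norm_num) (by omega)
  rw [a2]
  generalize (81 / 128 : ℝ) ^ h = z
  generalize (63 / 64 : ℝ) ^ T = w at a1
  calc _ ≤ n * (n ^ 3 / 2 * (n * (1 / n ^ 6) + 32 * (2 * z)) + 1 / (2 * n ^ 2)) := by
        gcongr
    _ = 1 / n + 32 * n ^ 4 * z := by field_simp; ring
    _ = 1 / n + 32 * 64 ^ 4 * ((h : ℝ) ^ 4 * z) := by congr 1; rw [n2]; ring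
    _ ≤ _ := by gcongr

lemma upper_aux (j : ℕ) : tvFromUniform (2 ^ (j + 45)) (1600 * (j + 45 + 1)) ≤
    480 * ((1 / 2) ^ j + 32 * 64 ^ 4 * (((2 ^ (j + 40) : ℕ) : ℝ) ^ 4 * (81 / 128) ^ (2 ^ (j + 40))))
      + 2 ^ 79 * (1 / 4) ^ ((j + 44) / 16) := by
  have h1 := (sh (j + 45)).main j rfl (Fintype.card_fin _) (319 * (j + 45 + 1))
  rw [show 5 * (319 * (j + 45 + 1) + (j + 45 + 1)) = 1600 * (j + 45 + 1) by ring] at h1
  rw [tv_eq]
  have h0 : 0 ≤ ∑ g, |(sh (j + 45)).law (1600 * (j + 45 + 1)) g -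
    1 / Fintype.card (Perm (Fin (2 * 2 ^ (j + 45))))| := sum_nonneg fun _ _ => abs_nonneg _
  generalize (∑ g, |(sh (j + 45)).law (1600 * (j + 45 + 1)) g -
    1 / Fintype.card (Perm (Fin (2 * 2 ^ (j + 45))))|) = S at h1 h0
  rw [Fintype.card_fin] at h1
  have h2 := num_aux j (2 ^ (j + 40)) (319 * (j + 45 + 1)) ((2 * 2 ^ (j + 45) : ℕ) : ℝ)
    (by push_cast; ring) (by push_cast; ring) (by omega)
  have a5 : (2 : ℝ) ^ 79 / 4 ^ ((j + 45 - 1) / 16) = 2 ^ 79 * (1 / 4) ^ ((j + 44) / 16) := by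
    rw [one_div_pow, mul_one_div, show j + 45 - 1 = j + 44 by omega]
  rw [a5] at h1
  refine le_trans ?_ (h1.trans (add_le_add_left (mul_le_mul_of_nonneg_left h2 (by norm_num)) _))
  linarith only [h0]

open Filter in
theorem upper : Tendsto (fun d : ℕ => tvFromUniform (2 ^ d) (1600 * (d + 1))) atTop (nhds 0) := by
  rw [← tendsto_add_atTop_iff_nat 45]
  refine squeeze_zero (fun j => ?_) upper_aux ?_
  · rw [tv_eq]; exact mul_nonneg (by norm_num) (sum_nonneg fun _ _ => abs_nonneg _)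
  · have h1 : Tendsto (fun j : ℕ => (1 / 2 : ℝ) ^ j) atTop (nhds 0) :=
      tendsto_pow_atTop_nhds_zero_of_lt_one (by norm_num) (by norm_num)
    have h2 : Tendsto (fun j : ℕ => (((2 ^ (j + 40) : ℕ) : ℝ) ^ 4 * (81 / 128 : ℝ) ^ (2 ^ (j + 40))))
        atTop (nhds 0) :=
      (tendsto_pow_const_mul_const_pow_of_abs_lt_one 4 (r := 81 / 128)
        (by rw [abs_of_pos] <;> norm_num)).comp
        ((tendsto_pow_atTop_atTop_of_one_lt (r := (2 : ℕ)) (by norm_num)).comp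
          (tendsto_add_atTop_nat 40))
    have h3 : Tendsto (fun j : ℕ => (1 / 4 : ℝ) ^ ((j + 44) / 16)) atTop (nhds 0) :=
      (tendsto_pow_atTop_nhds_zero_of_lt_one (by norm_num) (by norm_num)).comp
        ((Nat.tendsto_div_const_atTop (by norm_num)).comp (tendsto_add_atTop_nat 44))
    have := ((h1.add (h2.const_mul (32 * 64 ^ 4))).const_mul 480).add (h3.const_mul (2 ^ 79))
    rw [mul_zero, add_zero, mul_zero, mul_zero, add_zero] at this
    exact this

end Crest.Agent.H5.Thorp
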