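import Crest.Agent.H5.Thorp.HS

set_option autoImplicit false
set_option linter.unusedSectionVars false

namespace Crest.Agent.H5.Thorp

open Module
open scoped InnerProductSpace

/-- Square summable functions on a finite type. -/
abbrev L2 (G : Type) := EuclideanSpace ℂ G

section perm
variable {G : Type} [Fintype G] [DecidableEq G]

/-- Permutations act unitarily. -/
noncomputable def permH : Equiv.Perm G →* (L2 G ≃ₗᵢ[ℂ] L2 G) where
  toFun e := LinearIsometryEquiv.piLpCongrLeft 2 ℂ ℂ e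
  map_one' := by ext f x; rfl
  map_mul' e e' := by ext f x; rfl

@[simp] lemma permH_apply (e : Equiv.Perm G) (f : L2 G) (x : G) : permH e f x = f (e⁻¹ x) := rfl

end perm

variable {G : Type} [Group G] [Fintype G] [DecidableEq G]

/-- Left regular representation. -/
noncomputable def lam : G →* (L2 G ≃ₗᵢ[ℂ] L2 G) := permH.comp (MulAction.toPermHom G G)

/-- Right regular representation. -/
noncomputable def rho : G →* (L2 G ≃ₗᵢ[ℂ] L2 G) := permH.comp
  { toFun := fun h => Equiv.mulRight h⁻¹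
    map_one' := by ext; simp
    map_mul' := fun a b => by ext; simp [mul_assoc] }

/-- Inversion. -/
noncomputable def inv' : L2 G ≃ₗᵢ[ℂ] L2 G := permH (Equiv.inv G)

@[simp] lemma lam_apply (h : G) (f : L2 G) (x : G) : lam h f x = f (h⁻¹ * x) := rfl
@[simp] lemma rho_apply (h : G) (f : L2 G) (x : G) : rho h f x = f (x * h) := by
  simp [rho]
@[simp] lemma inv'_apply (f : L2 G) (x : G) : inv' f x = f x⁻¹ := rfl

variable (G) in
/-- Left translations. -/
noncomputable def LG : Subgroup (L2 G ≃ₗᵢ[ℂ] L2 G) := (lam (G := G)).range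
variable (G) in
/-- Right translations. -/
noncomputable def RG : Subgroup (L2 G ≃ₗᵢ[ℂ] L2 G) := (rho (G := G)).range

lemma lam_rho (h k : G) (f : L2 G) : lam h (rho k f) = rho k (lam h f) := by
  ext x; simp [mul_assoc]

lemma inv_LG {U : Submodule ℂ (L2 G)} : Inv (LG G) U ↔ ∀ h, ∀ f ∈ U, lam h f ∈ U :=
  ⟨fun H h => H _ ⟨h, rfl⟩, by rintro H _ ⟨h, rfl⟩; exact H h⟩

lemma inv_RG {U : Submodule ℂ (L2 G)} : Inv (RG G) U ↔ ∀ h, ∀ f ∈ U, rho h f ∈ U :=
  ⟨fun H h => H _ ⟨h, rfl⟩, by rintro H _ ⟨h, rfl⟩; exact H h⟩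

lemma invR_small (Y : ℕ) : Inv (RG G) (Small (LG G) Y) :=
  inv_small_of_comm _ _ _ (by rintro _ ⟨h, rfl⟩ _ ⟨k, rfl⟩ f; exact (lam_rho h k f).symm)

lemma coefR {U : Submodule ℂ (L2 G)} (hU : Inv (RG G) U) {f : L2 G} (hf : f ∈ U) :
    ∃ R : Submodule ℂ (L2 G), Inv (LG G) R ∧ finrank ℂ R ≤ finrank ℂ U ∧ f ∈ R := by
  rw [inv_RG] at hU
  set C : Dual ℂ U →ₗ[ℂ] L2 G :=
    { toFun := fun η => WithLp.toLp 2 fun k => η ⟨rho k f, hU k f hf⟩
      map_add' := fun a b => by ext; simp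
      map_smul' := fun a b => by ext; simp } with hC
  refine ⟨LinearMap.range C, ?_, ?_, ?_⟩
  · rw [inv_LG]
    rintro h _ ⟨η, rfl⟩
    refine ⟨η ∘ₗ (rho h⁻¹).toLinearEquiv.toLinearMap.restrict (fun x hx => hU _ x hx), ?_⟩
    ext k
    simp only [hC, LinearMap.coe_mk, AddHom.coe_mk, LinearMap.comp_apply, lam_apply]
    congr 1
    ext x
    simp
  · exact (LinearMap.finrank_range_le C).trans (Subspace.dual_finrank_eq).le
  · refine ⟨(EuclideanSpace.projₗ (1 : G)) ∘ₗ U.subtype, ?_⟩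
    ext k; simp [hC]

lemma Inv.invL {U : Submodule ℂ (L2 G)} (hU : Inv (LG G) U) :
    Inv (RG G) (U.map inv'.toLinearEquiv.toLinearMap) :=
  hU.map _ (by rintro _ ⟨h, rfl⟩; exact ⟨_, ⟨h, rfl⟩, fun f => by ext x; simp⟩)

lemma coefL {U : Submodule ℂ (L2 G)} (hU : Inv (LG G) U) {f : L2 G} (hf : f ∈ U) :
    ∃ R : Submodule ℂ (L2 G), Inv (RG G) R ∧ finrank ℂ R ≤ finrank ℂ U ∧ f ∈ R := by
  obtain ⟨R, h1, h2, h3⟩ := coefR hU.invL (Submodule.mem_map_of_mem hf)
  refine ⟨_, h1.invL, (Submodule.finrank_map_le _ _).trans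
    (h2.trans (Submodule.finrank_map_le _ _)), ⟨_, h3, ?_⟩⟩
  ext x; simp

lemma invR_le_small {U : Submodule ℂ (L2 G)} (hU : Inv (RG G) U) {Y : ℕ} (hY : finrank ℂ U ≤ Y) :
    U ≤ Small (LG G) Y := by
  intro f hf
  obtain ⟨R, h1, h2, h3⟩ := coefR hU hf
  exact le_small h1 (h2.trans hY) h3

variable (G) in
/-- The point mass at the identity. -/
noncomputable def del : L2 G := EuclideanSpace.single 1 1

lemma inner_del (f : L2 G) : ⟪del G, f⟫_ℂ = f 1 := by simp [del, EuclideanSpace.inner_single_left]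

variable (G) in
/-- Class functions. -/
def Cl : Submodule ℂ (L2 G) where
  carrier := {f | ∀ g h, f (h⁻¹ * g * h) = f g}
  add_mem' := fun {a b} ha hb g h => by simp [ha g h, hb g h]
  zero_mem' := fun g h => by simp
  smul_mem' := fun c a ha g h => by simp [ha g h]

lemma pr_del_mem_Cl {C : Submodule ℂ (L2 G)} (hL : Inv (LG G) C) (hR : Inv (RG G) C) :
    pr C (del G) ∈ Cl G := by
  intro g h
  have h1 : lam h (rho h (del G)) = del G := by
    ext x
    simp only [lam_apply, rho_apply, del, EuclideanSpace.single, PiLp.single_apply]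
    congr 1
    rw [mul_assoc, inv_mul_eq_one, eq_comm (a := h), mul_eq_right]
  have h2 : lam h (rho h (pr C (del G))) = pr C (del G) := by
    conv_rhs => rw [← h1]
    exact ((hL.proj_comm ⟨h, rfl⟩ _).trans (congrArg _ (hR.proj_comm ⟨h, rfl⟩ _))).symm
  have := congrArg (fun f : L2 G => f g) h2
  simpa using this

lemma pr_del_ne_zero {C : Submodule ℂ (L2 G)} (hL : Inv (LG G) C) (h0 : C ≠ ⊥) :
    pr C (del G) ≠ 0 := by
  intro h
  have h1 : del G ∈ Cᗮ := (Submodule.starProjection_apply_eq_zero_iff C).1 h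
  apply h0
  rw [eq_bot_iff]
  intro f hf
  rw [Submodule.mem_bot]
  ext g
  have := (Submodule.mem_orthogonal' _ _).1 h1 _ (inv_LG.1 hL g⁻¹ f hf)
  rw [inner_del, lam_apply, inv_inv, mul_one] at this
  exact this

lemma exists_bi {U : Submodule ℂ (L2 G)} (hU : Inv (LG G) U) {F : Submodule ℂ (L2 G)}
    (hUF : U ≤ F) (hR : Inv (RG G) F) :
    ∃ C, U ≤ C ∧ C ≤ F ∧ Inv (LG G) C ∧ Inv (RG G) C ∧ finrank ℂ C ≤ finrank ℂ U ^ 2 := by
  set C : Submodule ℂ (L2 G) := ⨆ h : G, U.map (rho h).toLinearEquiv.toLinearMap with hC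
  have hmem : ∀ h, ∀ f ∈ U, rho h f ∈ C := fun h f hf =>
    (le_iSup (fun h : G => U.map (rho h).toLinearEquiv.toLinearMap) h) (Submodule.mem_map_of_mem hf)
  have hind : ∀ W : Submodule ℂ (L2 G), (∀ h, ∀ f ∈ U, rho h f ∈ W) → C ≤ W := by
    intro W hW
    refine iSup_le fun h => ?_
    rintro _ ⟨f, hf, rfl⟩
    exact hW h f hf
  refine ⟨C, fun f hf => by simpa using hmem 1 f hf,
    hind F fun h f hf => inv_RG.1 hR h f (hUF hf), ?_, ?_, ?_⟩
  · rw [inv_LG]
    intro k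
    exact hind (C.comap (lam k).toLinearEquiv.toLinearMap) fun h f hf => by
      show lam k (rho h f) ∈ C
      rw [lam_rho]; exact hmem h _ (inv_LG.1 hU k f hf)
  · rw [inv_RG]
    intro k
    exact hind (C.comap (rho k).toLinearEquiv.toLinearMap) fun h f hf => by
      show rho k (rho h f) ∈ C
      have : rho k (rho h f) = rho (k * h) f := by rw [map_mul]; rfl
      rw [this]; exact hmem _ f hf
  · set b := Module.finBasis ℂ U
    choose R hR1 hR2 hR3 using fun j => coefL hU (b j).2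
    have h1 : U ≤ ⨆ j, R j := by
      intro f hf
      have : f = ∑ j, b.repr ⟨f, hf⟩ j • (b j : L2 G) := by
        have := congrArg U.subtype (b.sum_repr ⟨f, hf⟩)
        rw [map_sum] at this
        exact this.symm
      rw [this]
      exact Submodule.sum_mem _ fun j _ => Submodule.smul_mem _ _ (le_iSup R j (hR3 j))
    have h2 : C ≤ ⨆ j, R j := hind _ fun h f hf => by
      have : (⨆ j, R j) ≤ (⨆ j, R j).comap (rho h).toLinearEquiv.toLinearMap :=
        iSup_le fun j x hx => le_iSup R j (inv_RG.1 (hR1 j) h x hx)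
      exact this (h1 hf)
    refine (Submodule.finrank_mono h2).trans ?_
    have h3 : (⨆ j, R j) = Finset.univ.sup R := by simp [Finset.sup_eq_iSup]
    have h4 : ∀ s : Finset (Fin (finrank ℂ U)),
        finrank ℂ (s.sup R : Submodule ℂ (L2 G)) ≤ s.card * finrank ℂ U := by
      intro s
      induction s using Finset.induction_on with
      | empty => simp
      | insert j s hj ih =>
        rw [Finset.sup_insert, Finset.card_insert_of_notMem hj]
        have := Submodule.finrank_add_le_finrank_add_finrank (R j) (s.sup R)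
        have := hR2 j
        nlinarith
    rw [h3]
    simpa [sq] using h4 Finset.univ

lemma finrank_le_cl (Y : ℕ) (n : ℕ) : ∀ F : Submodule ℂ (L2 G), finrank ℂ F = n →
    F ≤ Small (LG G) Y → Inv (LG G) F → Inv (RG G) F →
    finrank ℂ F ≤ Y ^ 2 * finrank ℂ (F ⊓ Cl G : Submodule ℂ (L2 G)) := by
  induction n using Nat.strong_induction_on with
  | _ n ih =>
    intro F hn hF hL hR
    by_cases h0 : F = ⊥
    · subst h0; simp
    have hex : ∃ U, Inv (LG G) U ∧ finrank ℂ U ≤ Y ∧ U.map (pr F) ≠ ⊥ := by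
      by_contra h
      push Not at h
      have : Small (LG G) Y ≤ Fᗮ := sSup_le fun U hU x hx => by
        have := h U hU.1 hU.2
        rw [eq_bot_iff] at this
        exact (Submodule.starProjection_apply_eq_zero_iff F).1 (this (Submodule.mem_map_of_mem hx))
      apply h0
      rw [eq_bot_iff]
      intro x hx
      exact inner_self_eq_zero.1 (this (hF hx) x hx)
    obtain ⟨U, hU1, hU2, hU3⟩ := hex
    have hU'L : Inv (LG G) (U.map (pr F)) := hU1.map _ fun k hk => ⟨k, hk, hL.proj_comm hk⟩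
    have hU'F : U.map (pr F) ≤ F := by
      rintro _ ⟨x, _, rfl⟩; exact F.starProjection_apply_mem x
    obtain ⟨C, c1, c2, c3, c4, c5⟩ := exists_bi hU'L hU'F hR
    have hC0 : C ≠ ⊥ := fun h => hU3 (eq_bot_iff.2 (h ▸ c1))
    have hCd : finrank ℂ C ≤ Y ^ 2 :=
      c5.trans (Nat.pow_le_pow_left ((Submodule.finrank_map_le _ _).trans hU2) 2)
    have hsum := Submodule.finrank_add_inf_finrank_orthogonal c2
    have hpos : 0 < finrank ℂ C := Nat.pos_of_ne_zero fun h => hC0 (Submodule.finrank_eq_zero.1 h)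
    have h1 := ih _ (by omega) (Cᗮ ⊓ F) rfl (inf_le_right.trans hF) (c3.orth.inf hL) (c4.orth.inf hR)
    have h2 : (Cᗮ ⊓ F) ⊓ Cl G < F ⊓ Cl G := by
      refine lt_of_le_of_ne (inf_le_inf_right _ inf_le_right) fun h => ?_
      have hm : pr C (del G) ∈ C := C.starProjection_apply_mem _
      have : pr C (del G) ∈ (Cᗮ ⊓ F) ⊓ Cl G := h ▸ ⟨c2 hm, pr_del_mem_Cl c3 c4⟩
      exact pr_del_ne_zero c3 hC0 (inner_self_eq_zero.1 (this.1.1 _ hm))
    have h3 := Submodule.finrank_lt_finrank_of_lt h2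
    nlinarith

lemma finrank_small_le (Y : ℕ) :
    finrank ℂ (Small (LG G) Y) ≤ Y ^ 2 * finrank ℂ (Cl G) :=
  (finrank_le_cl Y _ _ rfl le_rfl (inv_small _ _) (invR_small Y)).trans
    (Nat.mul_le_mul_left _ (Submodule.finrank_mono inf_le_right))

lemma hs_eq (S : L2 G →ₗ[ℂ] L2 G) (hS : ∀ h f, S (rho h f) = rho h (S f)) :
    hs (EuclideanSpace.basisFun G ℂ) S = Fintype.card G * ‖S (del G)‖ ^ 2 := by
  have : ∀ g, EuclideanSpace.basisFun G ℂ g = rho g⁻¹ (del G) := by
    intro g; ext x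
    rw [rho_apply]
    simp [del, EuclideanSpace.single, PiLp.single_apply, mul_inv_eq_one]
  unfold hs
  simp_rw [this, hS, LinearIsometryEquiv.norm_map]
  simp

/-- Left convolution. -/
noncomputable def conv (ν : G → ℝ) : L2 G →ₗ[ℂ] L2 G :=
  ∑ g, (ν g : ℂ) • (lam g).toLinearEquiv.toLinearMap

lemma conv_eq (ν : G → ℝ) (f : L2 G) : conv ν f = ∑ g, (ν g : ℂ) • lam g f := by
  simp [conv, LinearMap.sum_apply]

lemma conv_apply (ν : G → ℝ) (f : L2 G) (x : G) : conv ν f x = ∑ g, ν g * f (g⁻¹ * x) := by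
  simp [conv_eq]

lemma conv_rho (ν : G → ℝ) (h : G) (f : L2 G) : conv ν (rho h f) = rho h (conv ν f) := by
  ext x; simp [conv_apply, mul_assoc]

lemma conv_mem (ν : G → ℝ) {W : Submodule ℂ (L2 G)} (hW : Inv (LG G) W) {f : L2 G} (hf : f ∈ W) :
    conv ν f ∈ W := by
  rw [conv_eq]
  exact W.sum_mem fun g _ => W.smul_mem _ (inv_LG.1 hW g f hf)

lemma conv_supp (ν : G → ℝ) (h0 : ∀ g, 0 ≤ ν g) (h1 : ∑ g, ν g ≤ 1) (S : Subgroup G)
    [DecidablePred (· ∈ S)] (A : ℝ) (hA : ∀ x, ∑ g, (if g⁻¹ * x ∈ S then ν g else 0) ≤ A)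
    (f : L2 G) (hf : ∀ x, x ∉ S → f x = 0) : ‖conv ν f‖ ^ 2 ≤ A * ‖f‖ ^ 2 := by
  have hA0 : 0 ≤ A := le_trans (Finset.sum_nonneg fun g _ => by split_ifs <;> simp [h0]) (hA 1)
  have h2 : ∀ x, ‖conv ν f x‖ ^ 2 ≤ A * ∑ g, ν g * ‖f (g⁻¹ * x)‖ ^ 2 := by
    intro x
    have a1 : ‖conv ν f x‖ ≤ ∑ g, ν g * ‖f (g⁻¹ * x)‖ := by
      rw [conv_apply]
      refine (norm_sum_le _ _).trans (le_of_eq ?_)
      simp [abs_of_nonneg (h0 _)]
    have a2 := Finset.sum_sq_le_sum_mul_sum_of_sq_le_mul Finset.univ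
      (r := fun g => ν g * ‖f (g⁻¹ * x)‖) (f := fun g => if g⁻¹ * x ∈ S then ν g else 0)
      (g := fun g => ν g * ‖f (g⁻¹ * x)‖ ^ 2) (fun g _ => by split_ifs <;> simp [h0])
      (fun g _ => by have := h0 g; positivity) (fun g _ => by
        split_ifs with h
        · apply le_of_eq; ring
        · simp [hf _ h])
    calc _ ≤ (∑ g, ν g * ‖f (g⁻¹ * x)‖) ^ 2 := pow_le_pow_left₀ (norm_nonneg _) a1 2
      _ ≤ _ := a2
      _ ≤ _ := by
          gcongr
          · exact Finset.sum_nonneg fun g _ => by have := h0 g; positivity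
          · exact hA x
  rw [EuclideanSpace.norm_sq_eq]
  refine (Finset.sum_le_sum fun x _ => h2 x).trans ?_
  rw [← Finset.mul_sum, Finset.sum_comm]
  gcongr
  have : ∀ g, ∑ x, ν g * ‖f (g⁻¹ * x)‖ ^ 2 = ν g * ‖f‖ ^ 2 := by
    intro g
    rw [← Finset.mul_sum, ← (lam g).norm_map f, EuclideanSpace.norm_sq_eq]; rfl
  simp_rw [this]
  rw [← Finset.sum_mul]
  exact mul_le_of_le_one_left (sq_nonneg _) h1

lemma hs_sub {K : Type} [Group K] [Fintype K] [DecidableEq K] (ι : K →* G)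
    (hι : Function.Injective ι) [DecidablePred (· ∈ ι.range)]
    (ν : G → ℝ) (h0 : ∀ g, 0 ≤ ν g) (h1 : ∑ g, ν g ≤ 1)
    (hA : ∀ x, ∑ g, (if g⁻¹ * x ∈ ι.range then ν g else 0) ≤ 2 * Fintype.card K / Fintype.card G)
    (Y : ℕ) :
    hs (EuclideanSpace.basisFun G ℂ) (conv ν ∘ₗ pr (Small (lam.comp ι).range Y)) ≤
      2 * finrank ℂ (Small (LG K) Y) := by
  set W := Small ((lam (G := G)).comp ι).range Y with hW
  have hWR : Inv (RG G) W :=
    inv_small_of_comm _ _ _ (by rintro _ ⟨h, rfl⟩ _ ⟨k, rfl⟩ f; exact (lam_rho _ k f).symm)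
  rw [hs_eq _ fun h f => by
    simp only [LinearMap.comp_apply]
    rw [← conv_rho]; congr 1; exact hWR.proj_comm ⟨h, rfl⟩ f]
  set ε := pr W (del G) with hε
  set M : L2 G →ₗ[ℂ] L2 G :=
    { toFun := fun f => WithLp.toLp 2 fun x => if x ∈ ι.range then f x else 0
      map_add' := fun a b => by ext x; simp only [PiLp.add_apply]; split_ifs <;> simp
      map_smul' := fun a b => by ext x; simp } with hM
  have hMa : ∀ f x, M f x = if x ∈ ι.range then f x else 0 := fun _ _ => rfl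
  have hM1 : ∀ x ∈ W, M x ∈ W := small_comm _ Y M (by
    rintro _ ⟨k, rfl⟩ f
    ext x
    simp only [hMa, MonoidHom.comp_apply, lam_apply]
    congr 1
    rw [Subgroup.mul_mem_cancel_left _ (Subgroup.inv_mem ι.range (⟨k, rfl⟩ : ι k ∈ ι.range))])
  have hM2 : ∀ x ∈ Wᗮ, M x ∈ Wᗮ := by
    intro x hx u hu
    have : ⟪u, M x⟫_ℂ = ⟪M u, x⟫_ℂ := by
      simp only [PiLp.inner_apply, hMa]
      apply Finset.sum_congr rfl
      intro y _; split_ifs <;> simp
    rw [this]; exact hx _ (hM1 u hu)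
  have hMd : M (del G) = del G := by
    ext x; rw [hMa]
    split_ifs with h
    · rfl
    · have : x ≠ 1 := fun h' => h (h' ▸ Subgroup.one_mem _)
      simp [del, EuclideanSpace.single, this]
  have hεs : ∀ x, x ∉ ι.range → ε x = 0 := by
    intro x hx
    have : ε = M ε := by
      have := proj_comm W M hM1 hM2 (del G)
      rw [hMd] at this
      exact this
    rw [this, hMa, if_neg hx]
  have c1 := conv_supp ν h0 h1 ι.range _ hA ε hεs
  set E := Small (LG K) Y with hE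
  set e := pr E (del K) with he
  have c2 : (Fintype.card K : ℝ) * ‖e‖ ^ 2 = finrank ℂ E := by
    rw [← hs_pr (EuclideanSpace.basisFun K ℂ) E, hs_eq _ fun h f => (invR_small Y).proj_comm ⟨h, rfl⟩ f]
  set res : L2 G →ₗ[ℂ] L2 K :=
    { toFun := fun f => WithLp.toLp 2 fun k => f (ι k)
      map_add' := fun a b => by ext x; simp
      map_smul' := fun a b => by ext x; simp } with hres
  have hra : ∀ f k, res f k = f (ι k) := fun _ _ => rfl
  have c3 : res ε ∈ E := small_map _ _ Y res (by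
    rintro _ ⟨k, rfl⟩
    exact ⟨_, ⟨k, rfl⟩, fun f => by ext x; simp [hra]⟩) _ (W.starProjection_apply_mem _)
  have c4 : ‖res ε‖ ≤ ‖ε‖ := by
    apply le_of_sq_le_sq _ (norm_nonneg _)
    rw [EuclideanSpace.norm_sq_eq, EuclideanSpace.norm_sq_eq]
    simp only [hra]
    rw [← Finset.sum_image (s := Finset.univ) (g := ι) (f := fun x => ‖ε x‖ ^ 2)
      fun a _ b _ h => hι h]
    exact Finset.sum_le_sum_of_subset_of_nonneg (Finset.subset_univ _) fun _ _ _ => sq_nonneg _
  have c5 : ‖ε‖ ^ 2 ≤ ‖e‖ * ‖ε‖ := by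
    have a1 : ⟪ε, ε⟫_ℂ = ⟪e, res ε⟫_ℂ := by
      have b1 : ⟪ε, ε⟫_ℂ = ⟪del G, ε⟫_ℂ := by
        conv_lhs => rw [hε]
        rw [ContinuousLinearMap.coe_coe, Submodule.inner_starProjection_left_eq_right,
          Submodule.starProjection_eq_self_iff.2 (W.starProjection_apply_mem _)]
        rfl
      rw [b1, he, ContinuousLinearMap.coe_coe, Submodule.inner_starProjection_left_eq_right,
        Submodule.starProjection_eq_self_iff.2 c3, inner_del, inner_del, hra, map_one]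
    calc ‖ε‖ ^ 2 = ‖⟪ε, ε⟫_ℂ‖ := by rw [inner_self_eq_norm_sq_to_K]; simp
      _ ≤ ‖e‖ * ‖res ε‖ := by rw [a1]; exact norm_inner_le_norm _ _
      _ ≤ _ := by gcongr
  have c6 : ‖ε‖ ≤ ‖e‖ := by
    rcases (norm_nonneg ε).eq_or_lt with h | h
    · rw [← h]; exact norm_nonneg _
    · nlinarith
  have hG : (0:ℝ) < Fintype.card G := by exact_mod_cast Fintype.card_pos
  calc (Fintype.card G : ℝ) * ‖(conv ν ∘ₗ pr W) (del G)‖ ^ 2
      ≤ Fintype.card G * (2 * Fintype.card K / Fintype.card G * ‖e‖ ^ 2) := by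
        gcongr
        refine c1.trans ?_
        gcongr
    _ = _ := by rw [← c2]; field_simp

end Crest.Agent.H5.Thorp
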