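import Crest.Agent.H5.Thorp.Rep

set_option autoImplicit false

namespace Crest.Agent.H5.Thorp

open Module
open scoped InnerProductSpace

variable {V : Type} [NormedAddCommGroup V] [InnerProductSpace ℂ V] [FiniteDimensional ℂ V]
  {ι : Type} [Fintype ι]

/-- Squared Hilbert-Schmidt norm. -/
noncomputable def hs (b : OrthonormalBasis ι ℂ V) (S : V →ₗ[ℂ] V) : ℝ := ∑ i, ‖S (b i)‖ ^ 2

omit [FiniteDimensional ℂ V] in
lemma hs_nonneg (b : OrthonormalBasis ι ℂ V) (S : V →ₗ[ℂ] V) : 0 ≤ hs b S :=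
  Finset.sum_nonneg fun _ _ => sq_nonneg _

lemma hs_adj (b : OrthonormalBasis ι ℂ V) (S : V →ₗ[ℂ] V) :
    hs b (LinearMap.adjoint S) = hs b S := by
  unfold hs
  simp_rw [← b.sum_sq_norm_inner_right (S _), ← b.sum_sq_norm_inner_left (LinearMap.adjoint S _),
    LinearMap.adjoint_inner_left]
  exact Finset.sum_comm

lemma adj_contr (R : V →ₗ[ℂ] V) (hR : ∀ x, ‖R x‖ ≤ ‖x‖) (y : V) :
    ‖LinearMap.adjoint R y‖ ≤ ‖y‖ := by
  set z := LinearMap.adjoint R y with hz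
  have h1 : ‖z‖ ^ 2 ≤ ‖y‖ * ‖z‖ := by
    have : ⟪z, z⟫_ℂ = ⟪y, R z⟫_ℂ := by rw [hz, LinearMap.adjoint_inner_left]
    calc ‖z‖ ^ 2 = ‖⟪z, z⟫_ℂ‖ := by rw [inner_self_eq_norm_sq_to_K]; simp
      _ ≤ ‖y‖ * ‖R z‖ := by rw [this]; exact norm_inner_le_norm _ _
      _ ≤ _ := by gcongr; exact hR z
  rcases (norm_nonneg z).eq_or_lt with h | h
  · rw [← h]; exact norm_nonneg _
  · nlinarith

lemma hs_comp_le (b : OrthonormalBasis ι ℂ V) (S R : V →ₗ[ℂ] V) (hR : ∀ x, ‖R x‖ ≤ ‖x‖) :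
    hs b (S ∘ₗ R) ≤ hs b S := by
  rw [← hs_adj, ← hs_adj b S, LinearMap.adjoint_comp]
  apply Finset.sum_le_sum
  intro i _
  exact pow_le_pow_left₀ (norm_nonneg _) (adj_contr R hR _) 2

omit [FiniteDimensional ℂ V] in
lemma hs_add_le (b : OrthonormalBasis ι ℂ V) (S S' : V →ₗ[ℂ] V) :
    hs b (S + S') ≤ 2 * hs b S + 2 * hs b S' := by
  unfold hs
  rw [Finset.mul_sum, Finset.mul_sum, ← Finset.sum_add_distrib]
  apply Finset.sum_le_sum
  intro i _
  have h := norm_add_le (S (b i)) (S' (b i))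
  have h2 : ‖(S + S') (b i)‖ ^ 2 ≤ (‖S (b i)‖ + ‖S' (b i)‖) ^ 2 :=
    pow_le_pow_left₀ (norm_nonneg _) h 2
  nlinarith [sq_nonneg (‖S (b i)‖ - ‖S' (b i)‖)]

/-- Orthogonal projection as a linear map. -/
noncomputable abbrev pr (W : Submodule ℂ V) : V →ₗ[ℂ] V := W.starProjection.toLinearMap

lemma pr_le (W : Submodule ℂ V) (x : V) : ‖pr W x‖ ≤ ‖x‖ := W.norm_starProjection_apply_le x

lemma hs_pr (b : OrthonormalBasis ι ℂ V) (W : Submodule ℂ V) : hs b (pr W) = finrank ℂ W := by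
  set c := stdOrthonormalBasis ℂ W
  have h1 : ∀ x, ‖pr W x‖ ^ 2 = ∑ j, ‖⟪(c j : V), x⟫_ℂ‖ ^ 2 := by
    intro x
    have := c.sum_sq_norm_inner_right (W.orthogonalProjectionOnto x)
    simp only [Submodule.inner_orthogonalProjectionOnto_eq_of_mem_left] at this
    rw [this]; rfl
  unfold hs
  simp_rw [h1]
  rw [Finset.sum_comm]
  simp_rw [b.sum_sq_norm_inner_left]
  have : ∀ j, ‖(c j : V)‖ ^ 2 = 1 := fun j => by
    have := c.orthonormal.1 j
    rw [Submodule.coe_norm] at this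
    rw [this]; norm_num
  simp [this]

lemma opnorm_le (b : OrthonormalBasis ι ℂ V) {H : Subgroup (V ≃ₗᵢ[ℂ] V)} {W W' : Submodule ℂ V}
    (hW : Inv H W) (hWW : W ≤ W') (T : V →ₗ[ℂ] V) (hT : ∀ k ∈ H, ∀ x, T (k x) = k (T x)) (X : ℕ)
    (hX : ∀ U ≤ W, Inv H U → U ≠ ⊥ → X ≤ finrank ℂ U) (f : V) (hf : f ∈ W) :
    X * ‖T f‖ ^ 2 ≤ hs b (T ∘ₗ pr W') * ‖f‖ ^ 2 := by
  rcases eq_or_ne f 0 with rfl | hf0
  · simp
  set C : Set V := (W : Set V) ∩ Metric.sphere 0 1 with hC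
  have hCc : IsCompact C := (isCompact_sphere 0 1).inter_left W.closed_of_finiteDimensional
  have hnorm : ∀ g ∈ W, g ≠ 0 → ((‖g‖⁻¹ : ℝ) : ℂ) • g ∈ C := by
    intro g hg hg0
    refine ⟨W.smul_mem _ hg, ?_⟩
    rw [mem_sphere_zero_iff_norm, norm_smul, Complex.norm_real, norm_inv, norm_norm]
    exact inv_mul_cancel₀ (norm_ne_zero_iff.2 hg0)
  have hTc : Continuous fun x => ‖T x‖ := (LinearMap.continuous_of_finiteDimensional T).norm
  obtain ⟨x₀, hx₀, hmax⟩ := hCc.exists_isMaxOn ⟨_, hnorm f hf hf0⟩ hTc.continuousOn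
  set c := ‖T x₀‖ with hc
  have hc0 : 0 ≤ c := norm_nonneg _
  have hle : ∀ g ∈ W, ‖T g‖ ≤ c * ‖g‖ := by
    intro g hg
    rcases eq_or_ne g 0 with rfl | hg0
    · simp
    · have h1 : ‖T (((‖g‖⁻¹ : ℝ) : ℂ) • g)‖ ≤ c := hmax (hnorm g hg hg0)
      rw [map_smul, norm_smul, Complex.norm_real, norm_inv, norm_norm,
        inv_mul_le_iff₀ (norm_pos_iff.2 hg0)] at h1
      linarith
  have hle2 : ∀ g ∈ W, ‖T g‖ ^ 2 ≤ c ^ 2 * ‖g‖ ^ 2 := fun g hg => by
    rw [← mul_pow]; exact pow_le_pow_left₀ (norm_nonneg _) (hle g hg) 2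
  set E : Submodule ℂ V :=
    { carrier := {g | g ∈ W ∧ ‖T g‖ ^ 2 = c ^ 2 * ‖g‖ ^ 2}
      add_mem' := by
        rintro g g' ⟨a1, a2⟩ ⟨b1, b2⟩
        refine ⟨W.add_mem a1 b1, ?_⟩
        have p1 := parallelogram_law_with_norm ℂ g g'
        have p2 := parallelogram_law_with_norm ℂ (T g) (T g')
        have q1 := hle2 _ (W.add_mem a1 b1)
        have q2 := hle2 _ (W.sub_mem a1 b1)
        rw [map_add] at q1 ⊢
        rw [map_sub] at q2
        have : c ^ 2 * ‖g + g'‖ ^ 2 + c ^ 2 * ‖g - g'‖ ^ 2 = 2 * (c ^ 2 * ‖g‖ ^ 2 + c ^ 2 * ‖g'‖ ^ 2) := by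
          rw [← mul_add, p1]; ring
        linarith
      zero_mem' := ⟨W.zero_mem, by simp⟩
      smul_mem' := by
        rintro a g ⟨a1, a2⟩
        refine ⟨W.smul_mem _ a1, ?_⟩
        rw [map_smul, norm_smul, norm_smul, mul_pow, mul_pow, a2]; ring } with hE
  have hEW : E ≤ W := fun g hg => hg.1
  have hx1 : ‖x₀‖ = 1 := mem_sphere_zero_iff_norm.1 hx₀.2
  have hE0 : E ≠ ⊥ := by
    intro h
    have : x₀ ∈ E := ⟨hx₀.1, by rw [hx1]; ring⟩
    rw [h, Submodule.mem_bot] at this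
    rw [this, norm_zero] at hx1; exact zero_ne_one hx1
  have hEi : Inv H E := by
    rintro k hk g ⟨a1, a2⟩
    exact ⟨hW k hk g a1, by rw [hT k hk, k.norm_map, k.norm_map, a2]⟩
  have h1 : (X : ℝ) ≤ finrank ℂ E := by exact_mod_cast hX E hEW hEi hE0
  have h2 : hs b ((T ∘ₗ pr W') ∘ₗ pr E) = c ^ 2 * finrank ℂ E := by
    rw [← hs_pr b E, hs, hs, Finset.mul_sum]
    apply Finset.sum_congr rfl
    intro i _
    have hm : pr E (b i) ∈ E := E.starProjection_apply_mem _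
    have : pr W' (pr E (b i)) = pr E (b i) :=
      Submodule.starProjection_eq_self_iff.2 (hWW (hEW hm))
    simp only [LinearMap.comp_apply, this]
    exact hm.2
  have h3 := hs_comp_le b (T ∘ₗ pr W') (pr E) (pr_le E)
  calc (X : ℝ) * ‖T f‖ ^ 2 ≤ finrank ℂ E * (c ^ 2 * ‖f‖ ^ 2) := by
        gcongr; exact hle2 f hf
    _ = (c ^ 2 * finrank ℂ E) * ‖f‖ ^ 2 := by ring
    _ ≤ _ := by gcongr; rw [← h2]; exact h3

section kill

variable {κ : Type} (H : κ → Subgroup (V ≃ₗᵢ[ℂ] V)) (Y : ℕ)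

/-- Successive projections onto the complements of the small parts. -/
noncomputable def Rl : List κ → V →ₗ[ℂ] V
  | [] => LinearMap.id
  | i :: l => pr (Small (H i) Y)ᗮ ∘ₗ Rl l

lemma Rl_le (l : List κ) (x : V) : ‖Rl H Y l x‖ ≤ ‖x‖ := by
  induction l with
  | nil => exact le_rfl
  | cons i l ih => exact (pr_le _ _).trans ih

variable (hc : ∀ i j, i ≠ j → ∀ k ∈ H i, ∀ k' ∈ H j, ∀ x, k' (k x) = k (k' x))
include hc

lemma inv_small_all (i j : κ) : Inv (H j) (Small (H i) Y) := by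
  by_cases h : i = j
  · subst h; exact inv_small _ _
  · exact inv_small_of_comm _ _ _ (hc i j h)

lemma Rl_comm (l : List κ) (j : κ) (k : V ≃ₗᵢ[ℂ] V) (hk : k ∈ H j) (x : V) :
    Rl H Y l (k x) = k (Rl H Y l x) := by
  induction l with
  | nil => rfl
  | cons i l ih =>
    simp only [Rl, LinearMap.comp_apply, ih]
    exact (inv_small_all H Y hc i j).orth.proj_comm hk _

lemma Rl_mem (l : List κ) (j : κ) (hj : j ∈ l) (x : V) : Rl H Y l x ∈ (Small (H j) Y)ᗮ := by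
  induction l with
  | nil => simp at hj
  | cons i l ih =>
    simp only [Rl, LinearMap.comp_apply]
    rcases List.mem_cons.1 hj with rfl | hj
    · exact Submodule.starProjection_apply_mem _ _
    · have h1 := ih hj
      rw [Submodule.mem_orthogonal] at h1 ⊢
      intro u hu
      have : ⟪u, pr (Small (H i) Y)ᗮ (Rl H Y l x)⟫_ℂ = ⟪pr (Small (H i) Y)ᗮ u, Rl H Y l x⟫_ℂ :=
        (Submodule.inner_starProjection_left_eq_right _ _ _).symm
      rw [this]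
      apply h1
      exact small_comm (H j) Y _
        (fun k hk x => (inv_small_all H Y hc i j).orth.proj_comm hk x) u hu

lemma Rl_kill [DecidableEq κ] (l : List κ) (U : Submodule ℂ V) (hU : ∀ i, Inv (H i) U)
    (hd : finrank ℂ U < (Y + 1) ^ l.toFinset.card) : ∀ x ∈ U, Rl H Y l x = 0 := by
  by_contra h
  push Not at h
  obtain ⟨x, hx, hx0⟩ := h
  set N := U.map (Rl H Y l) with hN
  have hN0 : N ≠ ⊥ := by
    intro h
    have : Rl H Y l x ∈ N := Submodule.mem_map_of_mem hx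
    rw [h, Submodule.mem_bot] at this
    exact hx0 this
  have h1 := mult H hc (Y + 1) l.toFinset N hN0
    (fun i _ => (hU i).map _ fun k hk => ⟨k, hk, Rl_comm H Y hc l i k hk⟩) (by
      intro i hi U' hU' hinv h0
      by_contra hlt
      have a1 : U' ≤ Small (H i) Y := le_small hinv (by omega)
      apply h0
      rw [eq_bot_iff]
      intro y hy
      obtain ⟨z, _, hz⟩ := hU' hy
      have a2 : y ∈ (Small (H i) Y)ᗮ := hz ▸ Rl_mem H Y hc l i (List.mem_toFinset.1 hi) z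
      exact inner_self_eq_zero.1 (a2 y (a1 hy)))
  have h2 : finrank ℂ N ≤ finrank ℂ U := Submodule.finrank_map_le (Rl H Y l) U
  omega

omit hc in
lemma hs_Rl (b : OrthonormalBasis ι ℂ V) (T S : V →ₗ[ℂ] V) (hS : ∀ x, ‖S x‖ ≤ ‖x‖) (B : ℝ)
    (hB : ∀ i, hs b (T ∘ₗ pr (Small (H i) Y)) ≤ B) (l : List κ) :
    hs b (T ∘ₗ (LinearMap.id - Rl H Y l) ∘ₗ S) + 2 * B ≤ 2 ^ (l.length + 1) * B := by
  induction l with
  | nil => simp [Rl, hs]
  | cons i l ih =>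
    have e : T ∘ₗ (LinearMap.id - Rl H Y (i :: l)) ∘ₗ S =
        T ∘ₗ (LinearMap.id - Rl H Y l) ∘ₗ S + (T ∘ₗ pr (Small (H i) Y)) ∘ₗ (Rl H Y l ∘ₗ S) := by
      ext x
      simp [Rl, Submodule.starProjection_orthogonal_val]
      abel
    rw [e]
    have h1 := hs_add_le b (T ∘ₗ (LinearMap.id - Rl H Y l) ∘ₗ S)
      ((T ∘ₗ pr (Small (H i) Y)) ∘ₗ (Rl H Y l ∘ₗ S))
    have h2 := hs_comp_le b (T ∘ₗ pr (Small (H i) Y)) (Rl H Y l ∘ₗ S)
      fun x => (Rl_le H Y l _).trans (hS x)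
    have h3 := hB i
    rw [List.length_cons, pow_succ 2 (l.length + 1)]
    linarith

/-- The Hilbert-Schmidt norm on the small part of the big group. -/
lemma hs_small [DecidableEq κ] (b : OrthonormalBasis ι ℂ V) (T : V →ₗ[ℂ] V) (B : ℝ)
    (hB : ∀ i, hs b (T ∘ₗ pr (Small (H i) Y)) ≤ B) (hB0 : 0 ≤ B) (l : List κ)
    (Hb : Subgroup (V ≃ₗᵢ[ℂ] V)) (hHb : ∀ i, H i ≤ Hb) (X : ℕ)
    (hX : X < (Y + 1) ^ l.toFinset.card) :
    hs b (T ∘ₗ pr (Small Hb X)) ≤ 2 ^ (l.length + 1) * B := by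
  have h1 := hs_Rl H Y b T (pr (Small Hb X)) (pr_le _) B hB l
  have h2 : Small Hb X ≤ LinearMap.ker (Rl H Y l) :=
    sSup_le fun U hU x hx => Rl_kill H Y hc l U (fun i k hk => hU.1 k (hHb i hk))
      (hU.2.trans_lt hX) x hx
  have e : T ∘ₗ (LinearMap.id - Rl H Y l) ∘ₗ pr (Small Hb X) = T ∘ₗ pr (Small Hb X) := by
    ext x
    have : Rl H Y l (pr (Small Hb X) x) = 0 := h2 (Submodule.starProjection_apply_mem _ _)
    simp only [LinearMap.comp_apply, LinearMap.sub_apply, this, LinearMap.id_apply, sub_zero]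
  rw [e] at h1
  linarith

end kill

end Crest.Agent.H5.Thorp
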