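import Crest.Agent.H5.Thorp.Link
import Crest.Agent.H5.Thorp.Boot2

set_option autoImplicit false
set_option linter.unusedSectionVars false

namespace Crest.Agent.H5.Thorp

open Finset Equiv
open scoped BigOperators

variable {P X : Type} [Fintype P] [DecidableEq P] [Fintype X] [DecidableEq X] {d : ℕ}
  (H : Sh P X d)

namespace Sh

/-- The law of the permutation after `t` steps. -/
noncomputable def law : ℕ → Perm X → ℝ
  | 0, x => if x = 1 then 1 else 0
  | t + 1, x => 𝔼 c, law t ((H.σ c)⁻¹ * x)

lemma law_nonneg (t : ℕ) : ∀ x, 0 ≤ H.law t x := by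
  induction t with
  | zero => intro x; simp only [law]; split_ifs <;> norm_num
  | succ t ih => intro x; exact expect_nonneg fun c _ => ih _

lemma law_dual (t : ℕ) : ∀ (f : Perm X → ℝ) (π : Perm X),
    ∑ g, H.law t g * f (g * π) = (Kop H.pst ^ t) f π := by
  induction t with
  | zero => intro f π; simp [law]
  | succ t ih =>
    intro f π
    rw [Kpow_succ, ← ih]
    simp only [law, Kop_apply, expect_mul, mul_expect]
    rw [← expect_sum_comm, ← expect_sum_comm]
    refine expect_congr rfl fun c _ => ?_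
    refine Fintype.sum_equiv (Equiv.mulLeft (H.σ c)⁻¹) _ _ fun g => ?_
    simp [pst, mul_assoc]

lemma law_sum (t : ℕ) : ∑ g, H.law t g = 1 := by
  have := H.law_dual t (fun _ => 1) 1
  rw [Kpow_const] at this
  simpa using this

lemma law_add (s t : ℕ) : ∀ x, H.law (t + s) x = ∑ g, H.law s g * H.law t (g⁻¹ * x) := by
  induction s with
  | zero => intro x; simp [law]
  | succ s ih =>
    intro x
    rw [← add_assoc]
    simp only [law, ih, expect_mul]
    rw [← expect_sum_comm]
    refine expect_congr rfl fun c _ => ?_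
    refine Fintype.sum_equiv (Equiv.mulLeft (H.σ c)) _ _ fun g => ?_
    simp [mul_assoc]

lemma law_sg (u : P) (t : ℕ) : ∑ g, (H.law (t + 1) g : ℂ) * sg g = 0 := by
  set r : Perm X → ℝ := fun g => ((Perm.sign g : ℤ) : ℝ) with hr
  have h1 : Kop H.pst r = 0 := by
    ext ρ
    rw [Kop_apply, ex_half u]
    have : ∀ c, r (H.pst c ρ) + r (H.pst (flip1 u c) ρ) = 0 := by
      intro c
      simp only [hr, pst, σ_flip, map_mul]
      rw [Perm.sign_swap (by simp)]
      simp
    simp [this]
  have h2 := H.law_dual (t + 1) r 1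
  rw [Kpow_succ, h1, map_zero] at h2
  have h3 := congrArg (fun x : ℝ => (x : ℂ)) h2
  simpa [hr, sg] using h3

lemma conv_law (s q : ℕ) (x : Perm X) :
    (conv (H.law s) ^ q) (del (Perm X)) x = (H.law (q * s) x : ℂ) := by
  induction q generalizing x with
  | zero =>
    simp only [pow_zero, Module.End.one_apply, zero_mul, law, del, EuclideanSpace.single,
      PiLp.single_apply]
    split_ifs <;> simp
  | succ q ih =>
    rw [pow_succ', Module.End.mul_apply, conv_apply, add_mul, one_mul, law_add]
    simp [ih]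

theorem main (j : ℕ) (hd : d = j + 45) (hP : Fintype.card P = 2 ^ d) (t : ℕ) :
    ∑ g, |H.law (5 * (t + (d + 1))) g - 1 / Fintype.card (Perm X)| ≤
      480 * (Fintype.card X * ((Fintype.card X : ℝ) ^ 3 / 2 * (Fintype.card X * (63 / 64) ^ t +
        32 * (2 ^ (2 ^ (j + 40) + 1) * (3 / 4) ^ (4 * 2 ^ (j + 40)))) +
        1 / (2 * (Fintype.card X : ℝ) ^ 2))) + 2 ^ 79 / 4 ^ ((d - 1) / 16) := by
  have hX : Fintype.card X = 2 * 2 ^ d := by
    rw [← Fintype.card_congr H.e₁]; simp [hP, mul_comm]
  obtain ⟨φ⟩ : Nonempty (X ≃ Fin 16 × (Fin (2 ^ (j + 41)) × Bool)) := by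
    apply Fintype.card_eq.1
    simp [hX, hd]; ring
  obtain ⟨eX⟩ : Nonempty (Fin (2 ^ d) × Bool ≃ X) := by
    apply Fintype.card_eq.1
    simp [hX]; ring
  have hne : Nonempty P := Fintype.card_pos_iff.1 (by rw [hP]; positivity)
  have hne' : Nonempty X := ⟨H.e₁ (Classical.arbitrary P, false)⟩
  set e : ∀ i : Fin 16, Fin (2 ^ (j + 41)) × Bool ≃ {x // (φ x).1 = i} := fun i =>
    { toFun := fun z => ⟨φ.symm (i, z), by simp⟩
      invFun := fun x => (φ x.1).2
      left_inv := fun z => by simp
      right_inv := fun x => by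
        obtain ⟨x, rfl⟩ := x
        simp }
  have h1 := boot (fun i x => (φ x).1 = i) (fun i j x a b => a.symm.trans b) (by omega) e eX
    (le_trans (by norm_num) (Nat.pow_le_pow_right (by norm_num) (show 2 ≤ d by omega)))
    ((d - 1) / 16) (Nat.pow_lt_pow_right (by norm_num) (by omega)) (H.law (t + (d + 1)))
    (H.law_nonneg _) (H.law_sum _) (H.law_sg (Classical.arbitrary P) (t + d))
    (Fintype.card X * ((Fintype.card X : ℝ) ^ 3 / 2 * (Fintype.card X * (63 / 64) ^ t +
        32 * (2 ^ (2 ^ (j + 40) + 1) * (3 / 4) ^ (4 * 2 ^ (j + 40)))) +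
        1 / (2 * (Fintype.card X : ℝ) ^ 2))) (by
      intro i f hf hf'
      have a1 : (univ.filter fun x => ¬ (φ x).1 = i).card + 4 * 2 ^ (j + 40) = Fintype.card X := by
        have b1 := card_filter_add_card_filter_not (s := univ) fun x => (φ x).1 = i
        have b2 := Fintype.card_congr (e i)
        rw [Fintype.card_subtype] at b2
        simp only [Fintype.card_prod, Fintype.card_fin, Fintype.card_bool] at b2
        rw [← b2, card_univ] at b1
        rw [← b1]; ring
      have a2 := H.partial_mix (2 ^ (j + 40)) (by rw [hd]; ring) t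
        (univ.filter fun x => ¬ (φ x).1 = i) a1.le f
        (fun g g' h => hf' g g' fun x hx => h x (by simpa using hx)) hf
      rw [← H.law_dual] at a2
      simp only [mul_one] at a2
      refine (le_abs_self _).trans (a2.trans ?_)
      gcongr
      omega)
  refine le_trans (le_of_eq ?_) h1
  refine sum_congr rfl fun g _ => ?_
  rw [PiLp.sub_apply, conv_law, PiLp.smul_apply, one_apply, smul_eq_mul, mul_one,
    ← Real.norm_eq_abs, ← Complex.norm_real]
  simp

end Sh

end Crest.Agent.H5.Thorp
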