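import Crest.Agent.H5.Thorp.Mix2

set_option autoImplicit false
set_option linter.unusedSectionVars false

namespace Crest.Agent.H5.Thorp

open Finset Equiv
open scoped BigOperators

variable {P X : Type} [Fintype P] [DecidableEq P] [Fintype X] [DecidableEq X] {d : ℕ}
  (H : Sh P X d)

/-- Dependence on the values at a set of labels only. -/
def DepT (T : Finset X) (f : Perm X → ℝ) : Prop :=
  ∀ g g' : Perm X, (∀ x ∈ T, g x = g' x) → f g = f g'

/-- The `ℓ¹` norm of the state. -/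
noncomputable def l1s (s : X → Bool × ℝ) : ℝ := ∑ y, |(s y).2|

namespace Sh

/-- One step on permutations. -/
def pst (c : P → Bool) (π : Perm X) : Perm X := H.σ c * π

lemma dep_Kp {T : Finset X} {f : Perm X → ℝ} (hf : DepT T f) (t : ℕ) :
    DepT T ((Kop H.pst ^ t) f) := by
  induction t with
  | zero => simpa using hf
  | succ t ih =>
    intro g g' h
    rw [Kpow_succ', Kop_apply, Kop_apply]
    exact expect_congr rfl fun c _ => ih _ _ fun x hx => by simp [pst, h x hx]

lemma abs_Kp {f : Perm X → ℝ} (hf : ∀ g, |f g| ≤ 1) (t : ℕ) (g : Perm X) :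
    |(Kop H.pst ^ t) f g| ≤ 1 := by
  have h1 := Kpow_le H.pst (fun _ => True) (fun _ _ _ => trivial) t f (fun _ => 1)
    (fun s _ => (abs_le.1 (hf s)).2) g trivial
  have h2 := Kpow_le H.pst (fun _ => True) (fun _ _ _ => trivial) t (fun _ => -1) f
    (fun s _ => (abs_le.1 (hf s)).1) g trivial
  rw [Kpow_const] at h1 h2
  exact abs_le.2 ⟨h2, h1⟩

lemma Kp_right (f : Perm X → ℝ) (τ : Perm X) (t : ℕ) (π : Perm X) :
    (Kop H.pst ^ t) (fun g => f (g * τ)) π = (Kop H.pst ^ t) f (π * τ) := by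
  induction t generalizing π with
  | zero => rfl
  | succ t ih =>
    rw [Kpow_succ', Kpow_succ', Kop_apply, Kop_apply]
    exact expect_congr rfl fun c _ => by rw [ih, pst, pst, mul_assoc]

lemma σ_flip (c : P → Bool) (u : P) :
    H.σ (flip1 u c) = H.σ c * swap (H.e₁ (u, false)) (H.e₁ (u, true)) := by
  ext x
  obtain ⟨⟨v, γ⟩, rfl⟩ := H.e₁.surjective x
  rw [Perm.mul_apply, σ_e₁]
  by_cases h : v = u
  · subst h
    cases γ
    · rw [swap_apply_left, σ_e₁, flip1_self]; simp
    · rw [swap_apply_right, σ_e₁, flip1_self]; simp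
  · rw [swap_apply_of_ne_of_ne (by simp [h]) (by simp [h]), σ_e₁, flip1_ne h]

lemma Kp_swap (f : Perm X → ℝ) (u : P) (ρ : Perm X) :
    Kop H.pst f (swap (H.e₁ (u, false)) (H.e₁ (u, true)) * ρ) = Kop H.pst f ρ := by
  rw [Kop_apply, Kop_apply, ← ex_flip u fun c => f (H.pst c ρ)]
  exact expect_congr rfl fun c _ => by rw [pst, pst, σ_flip, mul_assoc]

lemma link {R : Finset X} {a : X} (ha : a ∉ R) {f : Perm X → ℝ} (hf : DepT (insert a R) f)
    (hf1 : ∀ g, |f g| ≤ 1) (t : ℕ) : ∀ (π : Perm X) (s : X → Bool × ℝ),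
    (∀ y, (s y).1 = true ↔ π⁻¹ y ∉ R) → (∀ y, (s y).1 = false → (s y).2 = 0) →
    |∑ y, (s y).2 * (Kop H.pst ^ t) f (swap (π a) y * π)| ≤ (Kop H.step ^ t) l1s s := by
  induction t with
  | zero =>
    intro π s _ _
    refine (abs_sum_le_sum_abs _ _).trans (sum_le_sum fun y _ => ?_)
    rw [abs_mul]
    exact mul_le_of_le_one_right (abs_nonneg _) (hf1 _)
  | succ t ih =>
    intro π s h1 h2
    set h := (Kop H.pst ^ t) f with hh
    have hd : DepT (insert a R) (Kop H.pst h) := by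
      rw [hh, ← Kpow_succ']; exact H.dep_Kp hf _
    have a1 : ∑ y, (s y).2 * Kop H.pst h (swap (π a) y * π) =
        ∑ y, (H.A s y).2 * Kop H.pst h (swap (π a) y * π) := by
      rw [H.sum_pairs, H.sum_pairs fun y => (H.A s y).2 * Kop H.pst h (swap (π a) y * π)]
      apply sum_congr rfl
      intro u _
      simp only [A, par_e₁, Bool.not_false, Bool.not_true]
      by_cases g1 : (s (H.e₁ (u, false))).1 = true <;> by_cases g2 : (s (H.e₁ (u, true))).1 = true <;>
        simp only [g1, g2, and_self, and_true, true_and, if_true, Bool.false_eq_true, if_false]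
      have : Kop H.pst h (swap (π a) (H.e₁ (u, true)) * π) =
          Kop H.pst h (swap (π a) (H.e₁ (u, false)) * π) := by
        rw [← H.Kp_swap h u (swap (π a) (H.e₁ (u, false)) * π)]
        apply hd
        intro x hx
        rcases mem_insert.1 hx with rfl | hx
        · simp
        · have b1 : π x ≠ π a := fun e => ha (π.injective e ▸ hx)
          have b2 : π x ≠ H.e₁ (u, false) := fun e => (h1 _).1 g1 (by rw [← e]; simpa using hx)
          have b3 : π x ≠ H.e₁ (u, true) := fun e => (h1 _).1 g2 (by rw [← e]; simpa using hx)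
          simp only [Perm.mul_apply, swap_apply_of_ne_of_ne b1 b2, swap_apply_of_ne_of_ne b1 b3,
            swap_apply_of_ne_of_ne b2 b3]
      rw [this]; ring
    have a2 : ∑ y, (H.A s y).2 * Kop H.pst h (swap (π a) y * π) =
        𝔼 c, ∑ z, (H.step c s z).2 * h (swap (H.pst c π a) z * H.pst c π) := by
      simp only [Kop_apply, mul_expect]
      rw [← expect_sum_comm]
      refine expect_congr rfl fun c _ => ?_
      rw [← Equiv.sum_comp (H.σ c) fun z => (H.step c s z).2 * h (swap (H.pst c π a) z * H.pst c π)]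
      refine sum_congr rfl fun y _ => ?_
      rw [step_σ, pst, pst, ← mul_assoc, mul_swap_eq_swap_mul, mul_assoc, Perm.mul_apply]
    rw [Kpow_succ', Kpow_succ', a1, a2, Kop_apply]
    refine (abs_expect_le _ _).trans (expect_le_expect fun c _ => ih _ _ (fun y => ?_) fun y => ?_)
    · obtain ⟨x, rfl⟩ := (H.σ c).surjective y
      rw [step_σ]
      simpa [A, pst] using h1 x
    · obtain ⟨x, rfl⟩ := (H.σ c).surjective y
      rw [step_σ]
      intro h
      have h' : (s x).1 = false := h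
      simp [A, h', h2 x h']

lemma one_card {R : Finset X} {a : X} (ha : a ∉ R) {f : Perm X → ℝ} (hf : DepT (insert a R) f)
    (hf1 : ∀ g, |f g| ≤ 1) (t : ℕ) :
    ∃ f' : Perm X → ℝ, DepT R f' ∧ (∀ g, |f' g| ≤ 1) ∧ ∑ g, f' g = ∑ g, f g ∧
      ∃ s, Good Rᶜ.card s ∧
        |(Kop H.pst ^ t) f 1 - (Kop H.pst ^ t) f' 1| ≤ (Kop H.step ^ t) l1s s := by
  have hN : (0 : ℝ) < Rᶜ.card := by exact_mod_cast card_pos.2 ⟨a, mem_compl.2 ha⟩
  set N : ℝ := (Rᶜ.card : ℝ) with hNd
  refine ⟨N⁻¹ • ∑ x ∈ Rᶜ, fun g => f (g * swap a x), ?_, ?_, ?_,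
    fun y => (decide (y ∉ R), (if y = a then 1 else 0) - if y ∈ Rᶜ then N⁻¹ else 0),
    ⟨?_, ?_, ?_, ?_⟩, ?_⟩
  · intro g g' hg
    simp only [Pi.smul_apply, Finset.sum_apply]
    congr 1
    have hk : ∀ x ∈ R, (g'⁻¹ * g) x = x := fun x hx => by simp [hg x hx]
    refine sum_equiv (g'⁻¹ * g) (fun x => ?_) fun x hx => hf _ _ fun y hy => ?_
    · simp only [mem_compl, not_iff_not]
      refine ⟨fun hx => by rwa [hk x hx], fun hx => ?_⟩
      have := (g'⁻¹ * g).injective (hk _ hx)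
      rwa [← this]
    · rcases mem_insert.1 hy with rfl | hy
      · simp
      · have b1 : y ≠ a := fun e => ha (e ▸ hy)
        have b2 : y ≠ x := fun e => mem_compl.1 hx (e ▸ hy)
        have b3 : y ≠ (g'⁻¹ * g) x := fun e => b2 ((g'⁻¹ * g).injective ((hk y hy).trans e))
        simp only [Perm.mul_apply g, Perm.mul_apply g', swap_apply_of_ne_of_ne b1 b2,
          swap_apply_of_ne_of_ne b1 b3, hg y hy]
  · intro g
    simp only [Pi.smul_apply, Finset.sum_apply, smul_eq_mul]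
    rw [abs_mul, abs_inv, abs_of_pos hN, inv_mul_le_iff₀ hN]
    refine (abs_sum_le_sum_abs _ _).trans ((sum_le_sum fun x _ => hf1 _).trans ?_)
    simp [hNd]
  · simp only [Pi.smul_apply, Finset.sum_apply, smul_eq_mul]
    rw [← mul_sum, sum_comm]
    have : ∀ x, ∑ g, f (g * swap a x) = ∑ g, f g := fun x =>
      Fintype.sum_equiv (Equiv.mulRight (swap a x)) _ _ fun _ => rfl
    simp only [this, sum_const, nsmul_eq_mul]
    rw [← hNd, inv_mul_cancel_left₀ hN.ne']
  · intro y hy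
    have h1 : y ∈ R := by simpa using hy
    have h2 : y ≠ a := fun e => ha (e ▸ h1)
    simp [h1, h2]
  · simp only [sum_sub_distrib, sum_ite_eq', mem_univ, if_true, sum_ite_mem, univ_inter, sum_const,
      nsmul_eq_mul]
    rw [← hNd, mul_inv_cancel₀ hN.ne', sub_self]
  · have : ∀ y, ((if y = a then 1 else 0) - if y ∈ Rᶜ then N⁻¹ else 0) ^ 2 =
        (if y = a then 1 - 2 * N⁻¹ else 0) + if y ∈ Rᶜ then N⁻¹ ^ 2 else 0 := by
      intro y
      by_cases h : y = a
      · subst h; simp [ha]; ring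
      · simp [h]
    simp only [qq, this, sum_add_distrib, sum_ite_eq', mem_univ, if_true, sum_ite_mem, univ_inter,
      sum_const, nsmul_eq_mul]
    rw [← hNd, sq, mul_inv_cancel_left₀ hN.ne']
    have := inv_pos.2 hN
    linarith
  · congr 1; ext y; simp
  · refine le_trans (le_of_eq ?_) (H.link ha hf hf1 t 1 _ (fun y => by simp) fun y hy => ?_)
    · congr 1
      simp only [map_smul, map_sum, Pi.smul_apply, Finset.sum_apply, Kp_right, sub_mul,
        sum_sub_distrib, ite_mul, one_mul, zero_mul, sum_ite_eq', mem_univ, if_true, sum_ite_mem,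
        univ_inter, smul_eq_mul, mul_sum, Perm.one_apply, mul_one, swap_self]
      rfl
    · have h1 : y ∈ R := by simpa using hy
      have h2 : y ≠ a := fun e => ha (e ▸ h1)
      simp [h1, h2]

lemma l1s_le [Nonempty X] (s : X → Bool × ℝ) :
    l1s s ≤ (Fintype.card X : ℝ) ^ 3 / 2 * qq s + 1 / (2 * (Fintype.card X : ℝ) ^ 2) := by
  have hn : (0 : ℝ) < Fintype.card X := by exact_mod_cast Fintype.card_pos
  set n : ℝ := (Fintype.card X : ℝ) with hnd
  have : ∀ y, |(s y).2| ≤ n ^ 3 / 2 * (s y).2 ^ 2 + 1 / (2 * n ^ 3) := by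
    intro y
    rw [← sq_abs]
    generalize |(s y).2| = z
    have h3 : 0 < n ^ 3 := by positivity
    have : n ^ 3 / 2 * z ^ 2 + 1 / (2 * n ^ 3) - z = (n ^ 3 * z - 1) ^ 2 / (2 * n ^ 3) := by
      field_simp; ring
    have h4 : 0 ≤ (n ^ 3 * z - 1) ^ 2 / (2 * n ^ 3) := by positivity
    linarith
  refine (sum_le_sum fun y _ => this y).trans (le_of_eq ?_)
  simp only [sum_add_distrib, ← mul_sum, qq, sum_const, card_univ, nsmul_eq_mul, ← hnd]
  field_simp

theorem partial_mix [Nonempty X] (h : ℕ) (hh : 32 * h = 2 ^ d) (t : ℕ) (T : Finset X) :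
    T.card + 4 * h ≤ Fintype.card X → ∀ f : Perm X → ℝ, DepT T f → (∀ g, |f g| ≤ 1) →
    |(Kop H.pst ^ (t + (d + 1))) f 1 - (∑ g, f g) / Fintype.card (Perm X)| ≤
      T.card * ((Fintype.card X : ℝ) ^ 3 / 2 * (Fintype.card X * (63 / 64) ^ t +
        32 * (2 ^ (h + 1) * (3 / 4) ^ (4 * h))) + 1 / (2 * (Fintype.card X : ℝ) ^ 2)) := by
  induction T using Finset.induction_on with
  | empty =>
    intro _ f hf _
    have : f = fun _ => f 1 := by ext g; exact hf _ _ (by simp)
    have hG : (Fintype.card (Perm X) : ℝ) ≠ 0 := by exact_mod_cast Fintype.card_ne_zero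
    rw [this, Kpow_const]
    simp only [sum_const, card_univ, nsmul_eq_mul]
    rw [mul_div_cancel_left₀ _ hG]; simp
  | insert a R ha ih =>
    intro hc f hf hf1
    rw [card_insert_of_notMem ha] at hc ⊢
    obtain ⟨f', b1, b2, b3, s, b4, b5⟩ := H.one_card ha hf hf1 (t + (d + 1))
    have c1 := ih (by omega) f' b1 b2
    have c2 := Kpow_aff H.step (Good Rᶜ.card) (H.good_step _) (t + (d + 1)) l1s qq 0
      ((Fintype.card X : ℝ) ^ 3 / 2) 0 (1 / (2 * (Fintype.card X : ℝ) ^ 2))
      (fun s _ => (l1s_le s).trans_eq (by simp)) s b4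
    have c3 := H.mix Rᶜ.card h hh t (d + 1) le_rfl s b4
    rw [Q_top] at c3
    have c4 : (3 / 4 : ℝ) ^ Rᶜ.card ≤ (3 / 4) ^ (4 * h) :=
      pow_le_pow_of_le_one (by norm_num) (by norm_num) (by rw [card_compl]; omega)
    have c5 : (Kop H.step ^ (t + (d + 1))) qq s ≤ Fintype.card X * (63 / 64) ^ t +
        32 * (2 ^ (h + 1) * (3 / 4) ^ (4 * h)) := c3.trans (by gcongr)
    have c6 : (Fintype.card X : ℝ) ^ 3 / 2 * (Kop H.step ^ (t + (d + 1))) qq s ≤
        (Fintype.card X : ℝ) ^ 3 / 2 * (Fintype.card X * (63 / 64) ^ t +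
        32 * (2 ^ (h + 1) * (3 / 4) ^ (4 * h))) := by gcongr
    rw [b3] at c1
    have c7 := abs_sub_le ((Kop H.pst ^ (t + (d + 1))) f 1) ((Kop H.pst ^ (t + (d + 1))) f' 1)
      ((∑ g, f g) / Fintype.card (Perm X))
    push_cast
    linarith

end Sh

end Crest.Agent.H5.Thorp
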