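import Crest.Agent.H5.Thorp.Walk

set_option autoImplicit false
set_option linter.unusedSectionVars false

namespace Crest.Agent.H5.Thorp

open Finset Equiv
open scoped BigOperators

/-- Abstract data of the shuffle. -/
structure Sh (P X : Type) (d : ℕ) where
  e₁ : P × Bool ≃ X
  e₂ : P × Bool ≃ X
  key : ℕ → X → ℕ
  key' : ℕ → P → ℕ
  h1 : ∀ k u b, key (k + 1) (e₂ (u, b)) = 2 * key' k u + b.toNat
  h2 : ∀ k, k ≤ d → ∀ u β, key k (e₁ (u, β)) = key' k u
  h0 : ∀ x, key 0 x = 0
  hinj : Function.Injective (key (d + 1))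
  htop : ∀ u β, key (d + 1) (e₁ (u, β)) / 2 ^ d = β.toNat

variable {P X : Type} [Fintype P] [DecidableEq P] [Fintype X] [DecidableEq X] {d : ℕ}
  (H : Sh P X d)

/-- xor with the coins. -/
def xr (c : P → Bool) : Perm (P × Bool) :=
  Function.Involutive.toPerm (fun x => (x.1, xor x.2 (c x.1))) fun x => by simp

namespace Sh

/-- One shuffle. -/
def σ (c : P → Bool) : Perm X := H.e₁.symm.trans ((xr c).trans H.e₂)

lemma σ_e₁ (c : P → Bool) (u : P) (β : Bool) :
    H.σ c (H.e₁ (u, β)) = H.e₂ (u, xor β (c u)) := by simp [σ, xr]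

/-- The partner position. -/
def par (x : X) : X := H.e₁ ((H.e₁.symm x).1, !(H.e₁.symm x).2)

@[simp] lemma par_e₁ (u : P) (β : Bool) : H.par (H.e₁ (u, β)) = H.e₁ (u, !β) := by simp [par]

/-- Averaging over pairs. -/
noncomputable def A (s : X → Bool × ℝ) (x : X) : Bool × ℝ :=
  ((s x).1, if (s x).1 = true ∧ (s (H.par x)).1 = true then ((s x).2 + (s (H.par x)).2) / 2
    else (s x).2)

/-- One step of the averaged process. -/
noncomputable def step (c : P → Bool) (s : X → Bool × ℝ) : X → Bool × ℝ :=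
  fun y => H.A s ((H.σ c).symm y)

@[simp] lemma step_σ (c : P → Bool) (s : X → Bool × ℝ) (x : X) :
    H.step c s (H.σ c x) = H.A s x := by simp [step]

lemma sum_pairs (φ : X → ℝ) : ∑ x, φ x = ∑ u, (φ (H.e₁ (u, false)) + φ (H.e₁ (u, true))) := by
  rw [← H.e₁.sum_comp, Fintype.sum_prod_type]; simp [add_comm]

lemma prod_pairs (φ : X → ℝ) : ∏ x, φ x = ∏ u, (φ (H.e₁ (u, false)) * φ (H.e₁ (u, true))) := by
  rw [← H.e₁.prod_comp, Fintype.prod_prod_type]; simp [mul_comm]

/-- Class sums squared. -/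
noncomputable def Q (k : ℕ) (s : X → Bool × ℝ) : ℝ :=
  ∑ x, ∑ y, if H.key k x = H.key k y then (s x).2 * (s y).2 else 0

/-- The boundary term. -/
noncomputable def B (s : X → Bool × ℝ) : ℝ :=
  ∑ x, (s x).2 ^ 2 * (if (s (H.par x)).1 = true then 0 else 1)

end Sh

/-- Sum of squares. -/
noncomputable def qq (s : X → Bool × ℝ) : ℝ := ∑ x, (s x).2 ^ 2

/-- The invariant. -/
def Good (N : ℕ) (s : X → Bool × ℝ) : Prop :=
  (∀ x, (s x).1 = false → (s x).2 = 0) ∧ ∑ x, (s x).2 = 0 ∧ qq s ≤ 1 ∧
    (univ.filter fun x => (s x).1 = true).card = N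

namespace Sh

lemma A_sum (s : X → Bool × ℝ) (u : P) :
    (H.A s (H.e₁ (u, false))).2 + (H.A s (H.e₁ (u, true))).2 =
      (s (H.e₁ (u, false))).2 + (s (H.e₁ (u, true))).2 := by
  simp only [A, par_e₁, Bool.not_false, Bool.not_true]
  by_cases h1 : (s (H.e₁ (u, false))).1 = true <;> by_cases h2 : (s (H.e₁ (u, true))).1 = true <;>
    simp [h1, h2]
  ring

lemma good_step (N : ℕ) (c : P → Bool) (s : X → Bool × ℝ) (hs : Good N s) :
    Good N (H.step c s) := by
  obtain ⟨h1, h2, h3, h4⟩ := hs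
  refine ⟨fun y => ?_, ?_, ?_, ?_⟩
  · obtain ⟨x, rfl⟩ := (H.σ c).surjective y
    rw [step_σ]
    intro h
    have h' : (s x).1 = false := h
    simp [A, h', h1 x h']
  · rw [← Equiv.sum_comp (H.σ c), ← h2]
    simp only [step_σ]
    rw [H.sum_pairs, H.sum_pairs fun x => (s x).2]
    exact sum_congr rfl fun u _ => H.A_sum s u
  · refine le_trans ?_ h3
    rw [qq, qq, ← Equiv.sum_comp (H.σ c)]
    simp only [step_σ]
    rw [H.sum_pairs, H.sum_pairs fun x => (s x).2 ^ 2]
    apply sum_le_sum
    intro u _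
    simp only [A, par_e₁, Bool.not_false, Bool.not_true]
    by_cases h1 : (s (H.e₁ (u, false))).1 = true <;> by_cases h2 : (s (H.e₁ (u, true))).1 = true <;>
      simp [h1, h2]
    nlinarith [sq_nonneg ((s (H.e₁ (u, false))).2 - (s (H.e₁ (u, true))).2)]
  · rw [← h4]
    symm
    apply card_bij (fun x _ => H.σ c x)
    · intro x hx
      simpa [A] using hx
    · intro x _ y _ h; exact (H.σ c).injective h
    · intro y hy
      obtain ⟨x, rfl⟩ := (H.σ c).surjective y
      exact ⟨x, by simpa [A] using hy, rfl⟩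

lemma toNat_eq (a b : ℕ) (β γ : Bool) :
    2 * a + β.toNat = 2 * b + γ.toNat ↔ a = b ∧ β = γ := by
  cases β <;> cases γ <;> simp <;> omega

lemma KQ (k : ℕ) (hk : k ≤ d) (s : X → Bool × ℝ) (hs : ∀ x, (s x).1 = false → (s x).2 = 0) :
    Kop H.step (H.Q (k + 1)) s = (H.Q k s + H.B s) / 2 := by
  set a : P → Bool → ℝ := fun u β => (H.A s (H.e₁ (u, β))).2 with ha
  have h1 : ∀ c, H.Q (k + 1) (H.step c s) = ∑ u, ∑ v, if H.key' k u = H.key' k v then
      ∑ β, ∑ γ, (if xor β (c u) = xor γ (c v) then a u β * a v γ else 0) else 0 := by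
    intro c
    rw [Q, ← Equiv.sum_comp (H.σ c), ← H.e₁.sum_comp, Fintype.sum_prod_type]
    apply sum_congr rfl
    intro u _
    have : ∀ β, (∑ y, if H.key (k + 1) (H.σ c (H.e₁ (u, β))) = H.key (k + 1) y then
        (H.step c s (H.σ c (H.e₁ (u, β)))).2 * (H.step c s y).2 else 0) =
        ∑ v, if H.key' k u = H.key' k v then
          ∑ γ, (if xor β (c u) = xor γ (c v) then a u β * a v γ else 0) else 0 := by
      intro β
      rw [← Equiv.sum_comp (H.σ c), ← H.e₁.sum_comp, Fintype.sum_prod_type]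
      apply sum_congr rfl
      intro v _
      simp only [step_σ]
      simp only [σ_e₁, H.h1, toNat_eq, ha]
      split_ifs with h <;> simp [h]
    simp only [this]
    rw [sum_comm]
    apply sum_congr rfl
    intro v _
    split_ifs <;> simp
  have h2 : ∀ u v, 𝔼 c : P → Bool,
      ∑ β, ∑ γ, (if xor β (c u) = xor γ (c v) then a u β * a v γ else 0) =
      ((a u false + a u true) * (a v false + a v true) +
        if u = v then (a u false - a u true) ^ 2 else 0) / 2 := by
    intro u v
    by_cases h : u = v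
    · subst h
      rw [ex_one u fun b => ∑ β, ∑ γ, (if xor β b = xor γ b then a u β * a u γ else 0)]
      simp; ring
    · rw [ex_two h fun b b' => ∑ β, ∑ γ, (if xor β b = xor γ b' then a u β * a v γ else 0)]
      simp [h]; ring
  have h3 : H.Q k s = ∑ u, ∑ v, if H.key' k u = H.key' k v then
      (a u false + a u true) * (a v false + a v true) else 0 := by
    rw [Q, H.sum_pairs]
    apply sum_congr rfl
    intro u _
    rw [H.sum_pairs, H.sum_pairs, ← sum_add_distrib]
    apply sum_congr rfl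
    intro v _
    simp only [H.h2 k hk, ha, A_sum]
    split_ifs
    · ring
    · simp
  have h4 : H.B s = ∑ u, (a u false - a u true) ^ 2 := by
    rw [B, H.sum_pairs]
    apply sum_congr rfl
    intro u _
    have b1 := hs (H.e₁ (u, false))
    have b2 := hs (H.e₁ (u, true))
    simp only [ha, A, par_e₁, Bool.not_false, Bool.not_true]
    by_cases h1 : (s (H.e₁ (u, false))).1 = true <;> by_cases h2 : (s (H.e₁ (u, true))).1 = true
    · simp [h1, h2]; ring
    · simp [h1, h2, b2 (by simpa using h2)]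
    · simp [h1, h2, b1 (by simpa using h1)]
    · simp [h1, h2, b1 (by simpa using h1), b2 (by simpa using h2)]
  rw [Kop_apply]
  simp only [h1]
  rw [expect_sum_comm, h3, h4, ← sum_add_distrib, sum_div]
  apply sum_congr rfl
  intro u _
  rw [expect_sum_comm]
  have : (a u false - a u true) ^ 2 = ∑ v, if H.key' k u = H.key' k v then
      (if u = v then (a u false - a u true) ^ 2 else 0) else 0 := by
    rw [sum_eq_single u] <;> simp +contextual [eq_comm]
  rw [this, ← sum_add_distrib, sum_div]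
  apply sum_congr rfl
  intro v _
  split_ifs with h h'
  · rw [h2]; simp [h']
  · rw [h2]; simp [h']
  · simp

end Sh

end Crest.Agent.H5.Thorp
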