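import Crest.Agent.H5.Thorp.Mix

set_option autoImplicit false
set_option linter.unusedSectionVars false

namespace Crest.Agent.H5.Thorp

open Finset Equiv
open scoped BigOperators

variable {P X : Type} [Fintype P] [DecidableEq P] [Fintype X] [DecidableEq X] {d : ℕ}
  (H : Sh P X d)

namespace Sh

/-- Dependence on one class of positions only. -/
def Dep (k a : ℕ) (F : (X → Bool × ℝ) → ℝ) : Prop :=
  ∀ s s', (∀ z, H.key k z = a → s z = s' z) → F s = F s'

lemma step_e₂ (c : P → Bool) (s : X → Bool × ℝ) (u : P) (b : Bool) :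
    H.step c s (H.e₂ (u, b)) = H.A s (H.e₁ (u, xor b (c u))) := by
  rw [← H.step_σ c, σ_e₁]; simp

lemma dep_K {k a : ℕ} (hk : k ≤ d) {F : (X → Bool × ℝ) → ℝ} (hF : H.Dep (k + 1) a F) :
    H.Dep k (a / 2) (Kop H.step F) := by
  intro s s' h
  rw [Kop_apply, Kop_apply]
  refine expect_congr rfl fun c _ => hF _ _ fun z hz => ?_
  obtain ⟨⟨u, b⟩, rfl⟩ := H.e₂.surjective z
  rw [H.h1] at hz
  have h1 : ∀ β, s (H.e₁ (u, β)) = s' (H.e₁ (u, β)) := fun β => h _ (by
    rw [H.h2 k hk]; cases b <;> simp at hz <;> omega)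
  simp only [step_e₂, A, par_e₁, h1]

lemma indep_K {k a a' : ℕ} (h : a / 2 ≠ a' / 2) {F F' : (X → Bool × ℝ) → ℝ}
    (hF : H.Dep (k + 1) a F) (hF' : H.Dep (k + 1) a' F') :
    Kop H.step (F * F') = Kop H.step F * Kop H.step F' := by
  ext s
  simp only [Kop_apply, Pi.mul_apply]
  apply ex_indep (fun u => H.key' k u = a / 2)
  · intro c c' hc
    refine hF _ _ fun z hz => ?_
    obtain ⟨⟨u, b⟩, rfl⟩ := H.e₂.surjective z
    rw [H.h1] at hz
    rw [step_e₂, step_e₂, hc u (by cases b <;> simp at hz <;> omega)]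
  · intro c c' hc
    refine hF' _ _ fun z hz => ?_
    obtain ⟨⟨u, b⟩, rfl⟩ := H.e₂.surjective z
    rw [H.h1] at hz
    rw [step_e₂, step_e₂, hc u (by cases b <;> simp at hz <;> omega)]

lemma indep_pow (l : ℕ) : ∀ (k a a' : ℕ) (F F' : (X → Bool × ℝ) → ℝ), l ≤ k → k ≤ d + 1 →
    a / 2 ^ l ≠ a' / 2 ^ l → H.Dep k a F → H.Dep k a' F' →
    (Kop H.step ^ l) (F * F') = (Kop H.step ^ l) F * (Kop H.step ^ l) F' := by
  induction l with
  | zero => intros; simp
  | succ l ih =>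
    intro k a a' F F' h1 h2 h3 hF hF'
    obtain ⟨k, rfl⟩ : ∃ k', k = k' + 1 := ⟨k - 1, by omega⟩
    have h4 : a / 2 / 2 ^ l ≠ a' / 2 / 2 ^ l := by
      rwa [Nat.div_div_eq_div_mul, Nat.div_div_eq_div_mul, ← pow_succ']
    rw [Kpow_succ, Kpow_succ, Kpow_succ, H.indep_K (fun h => h4 (by rw [h])) hF hF']
    exact ih k _ _ _ _ (by omega) (by omega) h4 (H.dep_K (by omega) hF) (H.dep_K (by omega) hF')

/-- The number of marked positions in a class. -/
noncomputable def cnt (k a : ℕ) (s : X → Bool × ℝ) : ℝ :=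
  ∑ z, if H.key k z = a ∧ (s z).1 = true then 1 else 0

lemma K_cnt {k : ℕ} (hk : k ≤ d) (a : ℕ) :
    Kop H.step (H.cnt (k + 1) a) = (1 / 2 : ℝ) • H.cnt k (a / 2) := by
  ext s
  have h1 : ∀ c, H.cnt (k + 1) a (H.step c s) = ∑ x : P × Bool,
      if 2 * H.key' k x.1 + (xor x.2 (c x.1)).toNat = a ∧ (s (H.e₁ x)).1 = true then 1 else 0 := by
    intro c
    rw [cnt, ← Equiv.sum_comp (H.σ c), ← H.e₁.sum_comp]
    apply sum_congr rfl
    rintro ⟨u, β⟩ _
    simp only [step_σ]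
    simp only [σ_e₁, H.h1, A]
  rw [Kop_apply]
  simp only [h1]
  rw [expect_sum_comm, Pi.smul_apply, cnt, ← H.e₁.sum_comp, smul_eq_mul, mul_sum]
  apply sum_congr rfl
  rintro ⟨u, β⟩ _
  rw [ex_one u fun b => if 2 * H.key' k u + (xor β b).toNat = a ∧ (s (H.e₁ (u, β))).1 = true
    then (1 : ℝ) else 0, H.h2 k hk]
  by_cases h : (s (H.e₁ (u, β))).1 = true
  · cases β <;> simp [h] <;> split_ifs <;> first | omega | norm_num
  · simp [h]

lemma Kpow_cnt (l : ℕ) : ∀ k a : ℕ, k + l ≤ d + 1 →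
    (Kop H.step ^ l) (H.cnt (k + l) a) = ((1 / 2 : ℝ) ^ l) • H.cnt k (a / 2 ^ l) := by
  induction l with
  | zero => intros; simp
  | succ l ih =>
    intro k a h
    rw [Kpow_succ, ← add_assoc, H.K_cnt (by omega), map_smul, ih k _ (by omega), smul_smul,
      Nat.div_div_eq_div_mul, ← pow_succ', ← pow_succ']

/-- Exponential moment. -/
noncomputable def E (a : ℕ) (s : X → Bool × ℝ) : ℝ :=
  ∏ z, if H.key 1 z = a ∧ (s z).1 = true then 1 / 2 else 1

lemma E_nonneg (a : ℕ) (s : X → Bool × ℝ) : 0 ≤ H.E a s :=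
  prod_nonneg fun z _ => by split_ifs <;> norm_num

lemma cnt_E (a h : ℕ) (hh : 32 * h = 2 ^ d) (s : X → Bool × ℝ) :
    1 - (1 / 2 : ℝ) ^ d * H.cnt 1 a s ≤ 31 / 32 + 2 ^ h * H.E a s := by
  set j := (univ.filter fun z => H.key 1 z = a ∧ (s z).1 = true).card with hj
  have h1 : H.cnt 1 a s = j := by simp [cnt, hj]
  have h2 : H.E a s = (1 / 2) ^ j := by simp [E, hj, prod_ite]
  rw [h1, h2]
  have h3 : (32 : ℝ) * h = 2 ^ d := by exact_mod_cast hh
  have h4 : (0 : ℝ) < 2 ^ d := by positivity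
  by_cases hjh : h ≤ j
  · have : (h : ℝ) ≤ j := by exact_mod_cast hjh
    have a1 : (1 : ℝ) / 32 ≤ (1 / 2) ^ d * j := by
      rw [one_div_pow, div_mul_eq_mul_div, le_div_iff₀ h4]; linarith
    have : (0 : ℝ) ≤ 2 ^ h * (1 / 2) ^ j := by positivity
    linarith
  · have a1 : (1 : ℝ) ≤ 2 ^ h * (1 / 2) ^ j := by
      rw [one_div_pow, mul_one_div, le_div_iff₀ (by positivity), one_mul]
      exact pow_le_pow_right₀ (by norm_num) (by omega)
    have : (0 : ℝ) ≤ (1 / 2) ^ d * j := by positivity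
    linarith

lemma K_E (β₀ : Bool) (N : ℕ) (s : X → Bool × ℝ) (hs : Good N s) :
    Kop H.step (H.E β₀.toNat) s ≤ (3 / 4) ^ N := by
  have hk : ∀ u, H.key' 0 u = 0 := fun u => by rw [← H.h2 0 (by omega) u false, H.h0]
  set ψ : P → Bool → ℝ := fun u b =>
    (if (xor false b).toNat = β₀.toNat ∧ (s (H.e₁ (u, false))).1 = true then 1 / 2 else 1) *
    (if (xor true b).toNat = β₀.toNat ∧ (s (H.e₁ (u, true))).1 = true then 1 / 2 else 1) with hψ
  have h1 : ∀ c, H.E β₀.toNat (H.step c s) = ∏ u, ψ u (c u) := by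
    intro c
    rw [E, ← Equiv.prod_comp (H.σ c), H.prod_pairs]
    apply prod_congr rfl
    intro u _
    simp only [step_σ]
    simp only [σ_e₁, H.h1 0, A, hk, hψ, mul_zero, zero_add]
  have h2 : (3 / 4 : ℝ) ^ N = ∏ x, if (s x).1 = true then 3 / 4 else 1 := by
    simp only [prod_ite, prod_const, hs.2.2.2, one_pow, mul_one]
  rw [Kop_apply]
  simp only [h1]
  rw [ex_prod, h2, H.prod_pairs]
  apply prod_le_prod
  · intro u _
    simp only [hψ]
    split_ifs <;> norm_num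
  · intro u _
    simp only [hψ]
    by_cases g1 : (s (H.e₁ (u, false))).1 = true <;> by_cases g2 : (s (H.e₁ (u, true))).1 = true <;>
      cases β₀ <;> simp [g1, g2] <;> norm_num

lemma qq_le (N t : ℕ) (s : X → Bool × ℝ) (hs : Good N s) : (Kop H.step ^ t) qq s ≤ 1 := by
  have := Kpow_le H.step (Good N) (H.good_step N) t qq (fun _ => 1) (fun s hs => hs.2.2.1) s hs
  rwa [Kpow_const] at this

lemma Kd_B (N h : ℕ) (hh : 32 * h = 2 ^ d) (s : X → Bool × ℝ) (hs : Good N s) :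
    (Kop H.step ^ d) H.B s ≤ 31 / 32 * (Kop H.step ^ d) qq s +
      2 ^ h * (H.E false.toNat + H.E true.toNat) s := by
  set g : X → (X → Bool × ℝ) → ℝ := fun x s => (s x).2 ^ 2 with hg
  set I : X → (X → Bool × ℝ) → ℝ := fun y s => if (s y).1 = true then 0 else 1 with hI
  have h1 : H.B = ∑ x, g x * I (H.par x) := by ext s; simp [B, hg, hI]
  have h2 : (qq : (X → Bool × ℝ) → ℝ) = ∑ x, g x := by ext s; simp [qq, hg]
  have h3 : ∀ y, I y = (fun _ => 1) - H.cnt (1 + d) (H.key (d + 1) y) := by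
    intro y; ext s
    simp only [hI, cnt, Pi.sub_apply, add_comm 1 d, H.hinj.eq_iff]
    rw [sum_eq_single y] <;> simp +contextual
    split_ifs <;> simp
  have h4 : ∀ x, 0 ≤ (Kop H.step ^ d) (g x) s := by
    intro x
    have := Kpow_le H.step (fun _ => True) (fun _ _ _ => trivial) d (fun _ => 0) (g x)
      (fun s _ => sq_nonneg _) s trivial
    rwa [Kpow_const] at this
  have h5 : ∀ x, (Kop H.step ^ d) (g x * I (H.par x)) s ≤ (Kop H.step ^ d) (g x) s *
      (31 / 32 + 2 ^ h * (H.E false.toNat + H.E true.toNat) s) := by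
    intro x
    obtain ⟨⟨u, β⟩, rfl⟩ := H.e₁.surjective x
    rw [par_e₁, H.indep_pow d (d + 1) (H.key (d + 1) (H.e₁ (u, β))) (H.key (d + 1) (H.e₁ (u, !β)))
      _ _ (by omega) le_rfl (by rw [H.htop, H.htop]; cases β <;> simp)
      (fun s s' h => by simp only [hg, h _ rfl]) (fun s s' h => by simp only [hI, h _ rfl]),
      Pi.mul_apply]
    apply mul_le_mul_of_nonneg_left _ (h4 _)
    rw [h3, map_sub, Kpow_const, H.Kpow_cnt d 1 _ (by omega), H.htop]
    have a1 := H.cnt_E (!β).toNat h hh s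
    have a2 : H.E (!β).toNat s ≤ (H.E false.toNat + H.E true.toNat) s := by
      have b1 := H.E_nonneg false.toNat s
      have b2 := H.E_nonneg true.toNat s
      cases β <;> simp only [Pi.add_apply, Bool.not_false, Bool.not_true] <;> linarith
    have a3 : (2 : ℝ) ^ h * H.E (!β).toNat s ≤ 2 ^ h * (H.E false.toNat + H.E true.toNat) s := by
      gcongr
    simp only [Pi.sub_apply, Pi.smul_apply, smul_eq_mul]
    linarith
  have h6 := H.qq_le N d s hs
  rw [h1, map_sum, Finset.sum_apply]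
  refine (sum_le_sum fun x _ => h5 x).trans ?_
  rw [← sum_mul, ← Finset.sum_apply, ← map_sum, ← h2]
  have : 0 ≤ 2 ^ h * (H.E false.toNat + H.E true.toNat) s := by
    have b1 := H.E_nonneg false.toNat s
    have b2 := H.E_nonneg true.toNat s
    simp only [Pi.add_apply]
    positivity
  nlinarith

lemma KD_B (N h : ℕ) (hh : 32 * h = 2 ^ d) (s : X → Bool × ℝ) (hs : Good N s) :
    (Kop H.step ^ (d + 1)) H.B s ≤ 31 / 32 * (Kop H.step ^ (d + 1)) qq s +
      2 ^ (h + 1) * (3 / 4) ^ N := by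
  have h1 := Kpow_aff H.step (Good N) (H.good_step N) 1 _ _ _ _ _ 0
    (fun s hs => (H.Kd_B N h hh s hs).trans_eq (add_zero _).symm) s hs
  rw [pow_one, map_add, Pi.add_apply] at h1
  rw [Kpow_succ', Kpow_succ']
  have a1 := H.K_E false N s hs
  have a2 := H.K_E true N s hs
  have a3 : (2 : ℝ) ^ h * (Kop H.step (H.E false.toNat) s + Kop H.step (H.E true.toNat) s) ≤
      2 ^ h * ((3 / 4) ^ N + (3 / 4) ^ N) := by gcongr
  rw [pow_succ 2 h]
  linarith

lemma Q_top : H.Q (d + 1) = qq := by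
  ext s
  simp [Q, qq, H.hinj.eq_iff, sq]

lemma Q_le (k : ℕ) (s : X → Bool × ℝ) : H.Q k s ≤ Fintype.card X * qq s := by
  have : ∀ x y, (if H.key k x = H.key k y then (s x).2 * (s y).2 else 0) ≤
      (s x).2 ^ 2 / 2 + (s y).2 ^ 2 / 2 := by
    intro x y
    split_ifs
    · nlinarith [sq_nonneg ((s x).2 - (s y).2)]
    · positivity
  refine (sum_le_sum fun x _ => sum_le_sum fun y _ => this x y).trans (le_of_eq ?_)
  simp only [sum_add_distrib, sum_const, card_univ, nsmul_eq_mul, ← sum_div, ← mul_sum, qq]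
  ring

theorem mix (N h : ℕ) (hh : 32 * h = 2 ^ d) (t : ℕ) : ∀ k ≤ d + 1, ∀ s, Good N s →
    (Kop H.step ^ (t + (d + 1))) (H.Q k) s ≤
      Fintype.card X * (63 / 64) ^ t + 32 * (2 ^ (h + 1) * (3 / 4) ^ N) := by
  set ε : ℝ := 2 ^ (h + 1) * (3 / 4) ^ N with hε
  have hε0 : 0 ≤ ε := by positivity
  induction t with
  | zero =>
    intro k _ s hs
    have := Kpow_le H.step (Good N) (H.good_step N) (0 + (d + 1)) (H.Q k)
      (fun _ => Fintype.card X) (fun s hs => (H.Q_le k s).trans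
        (mul_le_of_le_one_right (by positivity) hs.2.2.1)) s hs
    rw [Kpow_const] at this
    simp only [pow_zero, mul_one]
    linarith
  | succ t ih =>
    intro k hk s hs
    cases k with
    | zero =>
      have := Kpow_le H.step (Good N) (H.good_step N) (t + 1 + (d + 1)) (H.Q 0)
        (fun _ => 0) (fun s hs => by
          simp [Q, H.h0, ← mul_sum, hs.2.1]) s hs
      rw [Kpow_const] at this
      refine this.trans (by positivity)
    | succ k =>
      have a1 := Kpow_aff H.step (Good N) (H.good_step N) (t + (d + 1)) (Kop H.step (H.Q (k + 1)))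
        (H.Q k) H.B (1 / 2) (1 / 2) 0
        (fun s hs => by rw [H.KQ k (by omega) s hs.1]; linarith) s hs
      have a2 := Kpow_aff H.step (Good N) (H.good_step N) t _ ((Kop H.step ^ (d + 1)) qq) 0
        (31 / 32) 0 ε
        (fun s hs => (H.KD_B N h hh s hs).trans_eq (by simp [hε])) s hs
      rw [← Kpow_add, ← Kpow_add, ← H.Q_top] at a2
      have a3 := ih k (by omega) s hs
      have a4 := ih (d + 1) le_rfl s hs
      rw [show t + 1 + (d + 1) = t + (d + 1) + 1 by ring, Kpow_succ, pow_succ (63 / 64 : ℝ)]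
      linarith

end Sh

end Crest.Agent.H5.Thorp
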