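import Crest.Agent.H5.Thorp.Sym

set_option autoImplicit false
set_option linter.unusedSectionVars false

namespace Crest.Agent.H5.Thorp

open Module Equiv

lemma pow_le_choose (w j : ℕ) : w ^ j ≤ (j * w).choose j := by
  induction j with
  | zero => simp
  | succ j ih =>
    rw [add_mul, one_mul, Nat.add_choose_eq, pow_succ]
    refine le_trans ?_ (Finset.single_le_sum (f := fun ij : ℕ × ℕ => (j * w).choose ij.1 * w.choose ij.2)
      (fun _ _ => Nat.zero_le _) (a := (j, 1)) (by simp))
    simp only [Nat.choose_one_right]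
    exact Nat.mul_le_mul_right _ ih

lemma choose_mono_half {m a b : ℕ} (hab : a ≤ b) (hb : b ≤ m / 2) : m.choose a ≤ m.choose b := by
  induction b, hab using Nat.le_induction with
  | base => exact le_rfl
  | succ b _ ih => exact (ih (by omega)).trans (Nat.choose_le_succ_of_lt_half_left (by omega))

lemma choose_uni {m a j : ℕ} (h1 : a ≤ j) (h2 : j + a ≤ m) : m.choose a ≤ m.choose j := by
  by_cases h : j ≤ m / 2
  · exact choose_mono_half h1 h
  · rw [← Nat.choose_symm (show j ≤ m by omega)]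
    exact choose_mono_half (by omega) (by omega)

lemma card_multisets (M : Finset (Multiset ℕ)) (n s : ℕ) (hn : n ≤ s ^ 2)
    (h1 : ∀ P ∈ M, P.sum ≤ n) (h2 : ∀ P ∈ M, ∀ i ∈ P, 1 ≤ i) :
    M.card ≤ (2 * s + 1) * (n + 1) ^ (4 * s) := by
  classical
  set A := Finset.range (n + 1) ×ˢ Finset.range (n + 1) with hA
  set φ : Multiset ℕ → Finset (ℕ × ℕ) := fun P => P.toFinset.image fun i => (i, P.count i) with hφ
  have hinj : Function.Injective φ := by
    have key : ∀ P P', φ P = φ P' → ∀ i ∈ P, P.count i = P'.count i := by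
      intro P P' h i hi
      have : (i, P.count i) ∈ φ P' := h ▸ Finset.mem_image_of_mem _ (Multiset.mem_toFinset.2 hi)
      obtain ⟨j, _, hj⟩ := Finset.mem_image.1 this
      simp only [Prod.mk.injEq] at hj
      rw [← hj.2, hj.1]
    intro P P' h
    ext i
    by_cases hi : i ∈ P
    · exact key P P' h i hi
    · by_cases hi' : i ∈ P'
      · exact (key P' P h.symm i hi').symm
      · rw [Multiset.count_eq_zero_of_notMem hi, Multiset.count_eq_zero_of_notMem hi']
  have hmap : ∀ P ∈ M, φ P ∈ (Finset.range (2 * s + 1)).biUnion fun j => A.powersetCard j := by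
    intro P hP
    have hc : P.toFinset.card ≤ 2 * s := by
      have a1 : (P.toFinset.filter fun i => i ≤ s).card ≤ s := by
        have : (P.toFinset.filter fun i => i ≤ s) ⊆ Finset.Icc 1 s := by
          intro i hi
          rw [Finset.mem_filter, Multiset.mem_toFinset] at hi
          exact Finset.mem_Icc.2 ⟨h2 P hP i hi.1, hi.2⟩
        simpa using Finset.card_le_card this
      have a2 : (P.toFinset.filter fun i => ¬ i ≤ s).card * (s + 1) ≤ n := by
        have b1 := Finset.card_nsmul_le_sum (P.toFinset.filter fun i => ¬ i ≤ s) id (s + 1)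
          (fun i hi => by have := (Finset.mem_filter.1 hi).2; simp; omega)
        have b2 : ∑ i ∈ P.toFinset.filter fun i => ¬ i ≤ s, id i ≤ ∑ i ∈ P.toFinset, id i :=
          Finset.sum_le_sum_of_subset (Finset.filter_subset _ _)
        have b3 : ∑ i ∈ P.toFinset, id i ≤ P.sum := by
          rw [Finset.sum_multiset_count P]
          apply Finset.sum_le_sum
          intro i hi
          have := Multiset.one_le_count_iff_mem.2 (Multiset.mem_toFinset.1 hi)
          simp only [id, smul_eq_mul]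
          exact Nat.le_mul_of_pos_left _ this
        have := h1 P hP
        simp only [smul_eq_mul] at b1
        exact b1.trans (b2.trans (b3.trans this))
      have a3 := Finset.card_filter_add_card_filter_not (s := P.toFinset) fun i => i ≤ s
      have a4 : (P.toFinset.filter fun i => ¬ i ≤ s).card ≤ s := by
        generalize (P.toFinset.filter fun i => ¬ i ≤ s).card = c at a2
        by_contra h
        push Not at h
        nlinarith
      omega
    rw [Finset.mem_biUnion]
    refine ⟨(φ P).card, Finset.mem_range.2 (Nat.lt_succ_of_le (Finset.card_image_le.trans hc)), ?_⟩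
    rw [Finset.mem_powersetCard]
    refine ⟨fun x hx => ?_, rfl⟩
    obtain ⟨i, hi, rfl⟩ := Finset.mem_image.1 hx
    have hi' := Multiset.mem_toFinset.1 hi
    have b1 : i ≤ P.sum := Multiset.le_sum_of_mem hi'
    have b2 : P.count i ≤ P.sum := by
      refine (Multiset.count_le_card _ _).trans ?_
      simpa using Multiset.card_nsmul_le_sum (s := P) (a := 1) (h2 P hP)
    have := h1 P hP
    simp only [hA, Finset.mem_product, Finset.mem_range]
    omega
  calc M.card ≤ ((Finset.range (2 * s + 1)).biUnion fun j => A.powersetCard j).card :=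
        Finset.card_le_card_of_injOn φ hmap hinj.injOn
    _ ≤ ∑ j ∈ Finset.range (2 * s + 1), (A.powersetCard j).card := Finset.card_biUnion_le
    _ ≤ ∑ j ∈ Finset.range (2 * s + 1), (n + 1) ^ (4 * s) := by
        apply Finset.sum_le_sum
        intro j hj
        rw [Finset.card_powersetCard]
        refine (Nat.choose_le_pow _ _).trans ?_
        have : A.card = (n + 1) ^ 2 := by simp [hA, sq]
        rw [this, ← pow_mul]
        exact Nat.pow_le_pow_right (by omega) (by have := Finset.mem_range.1 hj; omega)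
    _ = _ := by simp

variable {Z : Type} [Fintype Z] [DecidableEq Z]

lemma finrank_Cl_le : finrank ℂ (Cl (Perm Z)) ≤
    ((Finset.univ : Finset (Perm Z)).image Perm.cycleType).card := by
  set M := (Finset.univ : Finset (Perm Z)).image Perm.cycleType with hM
  have hex : ∀ P : M, ∃ g : Perm Z, g.cycleType = P.1 := fun P => by
    obtain ⟨g, _, hg⟩ := Finset.mem_image.1 P.2
    exact ⟨g, hg⟩
  choose r hr using hex
  set ev : Cl (Perm Z) →ₗ[ℂ] (M → ℂ) :=
    { toFun := fun f P => f.1 (r P)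
      map_add' := fun a b => rfl
      map_smul' := fun a b => rfl } with hev
  have hinj : Function.Injective ev := by
    rw [injective_iff_map_eq_zero]
    intro f hf
    ext g
    have h1 := congrFun hf ⟨g.cycleType, Finset.mem_image_of_mem _ (Finset.mem_univ g)⟩
    have h2 := hr ⟨g.cycleType, Finset.mem_image_of_mem _ (Finset.mem_univ g)⟩
    obtain ⟨c, hc⟩ := isConj_iff.1 (Perm.isConj_iff_cycleType_eq.2 h2)
    have h3 := f.2 g c
    have h4 : c⁻¹ * g * c = r ⟨g.cycleType, Finset.mem_image_of_mem _ (Finset.mem_univ g)⟩ := by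
      conv_lhs => rw [← hc]
      group
    rw [h4] at h3
    exact h3.symm.trans h1
  simpa using LinearMap.finrank_le_finrank_of_injective hinj

lemma finrank_Cl_le' (s : ℕ) (hn : Fintype.card Z ≤ s ^ 2) :
    finrank ℂ (Cl (Perm Z)) ≤ (2 * s + 1) * (Fintype.card Z + 1) ^ (4 * s) := by
  refine finrank_Cl_le.trans (card_multisets _ _ s hn ?_ ?_)
  · intro P hP
    obtain ⟨g, _, rfl⟩ := Finset.mem_image.1 hP
    exact g.sum_cycleType_le
  · intro P hP i hi
    obtain ⟨g, _, rfl⟩ := Finset.mem_image.1 hP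
    have := Perm.two_le_of_mem_cycleType hi
    omega

lemma phi_bound {m : ℕ} (e : Fin m × Bool ≃ Z) (w J s : ℕ) (h1 : 2 * m + 1 ≤ w ^ 3)
    (h2 : 2 * s + 1 ≤ w ^ 3) (h3 : 3 * (4 * s + 1) ≤ 10 * J) (h4 : 2 * m ≤ s ^ 2)
    (h5 : J * w ≤ m) (h6 : 2 * J + 1 ≤ m) (Y : ℕ) (hY : 1 ≤ Y) :
    finrank ℂ (Small (LG (Perm Z)) Y) ≤ 2 * Y ^ 12 := by
  have hc : Fintype.card Z = 2 * m := by
    rw [← Fintype.card_congr e]; simp [mul_comm]
  have hw : ∀ j ≤ J, w ^ j ≤ m.choose j := fun j hj =>
    (pow_le_choose w j).trans (Nat.choose_le_choose j ((Nat.mul_le_mul_right _ hj).trans h5))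
  have hw1 : 1 ≤ w := by
    rcases Nat.eq_zero_or_pos w with h | h
    · rw [h] at h1; simp at h1
    · exact h
  by_cases hA : m.choose J ≤ Y
  · have a1 := finrank_Cl_le' (Z := Z) s (hc ▸ h4)
    have a2 : (2 * s + 1) * (Fintype.card Z + 1) ^ (4 * s) ≤ Y ^ 10 := by
      calc _ ≤ w ^ 3 * (w ^ 3) ^ (4 * s) :=
            Nat.mul_le_mul h2 (Nat.pow_le_pow_left (hc ▸ h1) _)
        _ = w ^ (3 * (4 * s + 1)) := by ring
        _ ≤ w ^ (10 * J) := Nat.pow_le_pow_right hw1 h3
        _ = (w ^ J) ^ 10 := by ring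
        _ ≤ _ := Nat.pow_le_pow_left ((hw J le_rfl).trans hA) _
    calc _ ≤ _ := finrank_small_le Y
      _ ≤ Y ^ 2 * Y ^ 10 := Nat.mul_le_mul_left _ (a1.trans a2)
      _ = Y ^ 12 := by ring
      _ ≤ _ := by omega
  · have hex : ∃ j, Y < m.choose j := ⟨J, by omega⟩
    classical
    set j₀ := Nat.find hex with hj₀
    have b1 : Y < m.choose j₀ := Nat.find_spec hex
    have b2 : j₀ ≤ J := Nat.find_min' hex (by omega)
    have b3 : j₀ ≠ 0 := by
      intro h; rw [h] at b1; simp at b1; omega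
    have b4 : m.choose (j₀ - 1) ≤ Y := by
      have := Nat.find_min hex (show j₀ - 1 < j₀ by omega)
      omega
    have : Nonempty Z := ⟨e (⟨0, by omega⟩, false)⟩
    have b5 := small_le_lev e (Y := Y) (j₀ := j₀) (fun j a b => b1.trans_le (choose_uni a b))
      (by omega)
    have b6 := finrank_Lev (Z := Z) (2 * (j₀ - 1))
    have b7 : Fintype.card Z ^ (2 * (2 * (j₀ - 1))) ≤ Y ^ 12 := by
      calc _ ≤ (w ^ 3) ^ (2 * (2 * (j₀ - 1))) := Nat.pow_le_pow_left (by omega) _
        _ = (w ^ (j₀ - 1)) ^ 12 := by rw [← pow_mul, ← pow_mul]; congr 1; ring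
        _ ≤ _ := Nat.pow_le_pow_left ((hw _ (by omega)).trans b4) _
    have b8 := Submodule.finrank_add_le_finrank_add_finrank (Lev Z (2 * (j₀ - 1)))
      ((Lev Z (2 * (j₀ - 1))).map Sg)
    have b9 : finrank ℂ ((Lev Z (2 * (j₀ - 1))).map Sg) ≤ _ := Submodule.finrank_map_le _ _
    have b10 := Submodule.finrank_mono b5
    omega

lemma phi_pow {k : ℕ} (hk : 42 ≤ k + 1) (e : Fin (2 ^ k) × Bool ≃ Z) (Y : ℕ) (hY : 1 ≤ Y) :
    finrank ℂ (Small (LG (Perm Z)) Y) ≤ 2 * Y ^ 12 := by
  obtain ⟨a, b, hb, hab⟩ : ∃ a b, b < 6 ∧ k + 1 = 6 * (a + 7) + b :=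
    ⟨(k + 1) / 6 - 7, (k + 1) % 6, by omega, by omega⟩
  have h2 : ∀ i j : ℕ, i < j → 2 ^ i + 1 ≤ 2 ^ j := fun i j h => Nat.pow_lt_pow_right (by norm_num) h
  have h3 : ∀ i j : ℕ, i ≤ j → 2 ^ i ≤ 2 ^ j := fun i j h => Nat.pow_le_pow_right (by norm_num) h
  apply phi_bound e (2 ^ (2 * a + 16)) (2 ^ (4 * a + 25)) (2 ^ (3 * a + 24)) _ _ _ _ _ _ Y hY
  · rw [← pow_mul, ← pow_succ']; exact h2 _ _ (by omega)
  · rw [← pow_mul, ← pow_succ']; exact h2 _ _ (by omega)
  · have := h3 (3 * a + 25) (4 * a + 25) (by omega)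
    have h4 : 1 ≤ 2 ^ (3 * a + 24) := Nat.one_le_two_pow
    rw [pow_succ 2 (3 * a + 24)] at this
    omega
  · rw [← pow_mul, ← pow_succ']; exact h3 _ _ (by omega)
  · rw [← pow_add]; exact h3 _ _ (by omega)
  · rw [← pow_succ']; exact h2 _ _ (by omega)

end Crest.Agent.H5.Thorp
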