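import Mathlib

set_option autoImplicit false

namespace Crest.Agent.H5.Thorp

open Module
open scoped InnerProductSpace

variable {V : Type} [NormedAddCommGroup V] [InnerProductSpace ℂ V] [FiniteDimensional ℂ V]

/-- Invariance of a subspace under a group of unitaries. -/
def Inv (H : Subgroup (V ≃ₗᵢ[ℂ] V)) (U : Submodule ℂ V) : Prop := ∀ k ∈ H, ∀ x ∈ U, k x ∈ U

/-- The span of all invariant subspaces of dimension at most `Y`. -/
def Small (H : Subgroup (V ≃ₗᵢ[ℂ] V)) (Y : ℕ) : Submodule ℂ V :=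
  sSup {U | Inv H U ∧ finrank ℂ U ≤ Y}

omit [FiniteDimensional ℂ V] in
lemma inner_unitary (k : V ≃ₗᵢ[ℂ] V) (x y : V) : ⟪x, k y⟫_ℂ = ⟪k⁻¹ x, y⟫_ℂ := by
  rw [← k.inner_map_map (k⁻¹ x) y]; simp

omit [FiniteDimensional ℂ V] in
lemma Inv.orth {H : Subgroup (V ≃ₗᵢ[ℂ] V)} {U : Submodule ℂ V} (h : Inv H U) : Inv H Uᗮ := by
  intro k hk x hx
  rw [Submodule.mem_orthogonal] at hx ⊢
  intro u hu
  rw [inner_unitary]
  exact hx _ (h _ (H.inv_mem hk) u hu)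

omit [FiniteDimensional ℂ V] in
lemma Inv.inf {H : Subgroup (V ≃ₗᵢ[ℂ] V)} {U W : Submodule ℂ V} (h : Inv H U) (h' : Inv H W) :
    Inv H (U ⊓ W) := fun k hk x hx => ⟨h k hk x hx.1, h' k hk x hx.2⟩

lemma proj_comm (W : Submodule ℂ V) (S : V →ₗ[ℂ] V) (h1 : ∀ x ∈ W, S x ∈ W)
    (h2 : ∀ x ∈ Wᗮ, S x ∈ Wᗮ) (x : V) : W.starProjection (S x) = S (W.starProjection x) := by
  apply Submodule.eq_starProjection_of_mem_orthogonal (h1 _ (W.starProjection_apply_mem x))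
  rw [← map_sub]
  exact h2 _ (W.sub_starProjection_mem_orthogonal x)

lemma Inv.proj_comm {H : Subgroup (V ≃ₗᵢ[ℂ] V)} {W : Submodule ℂ V} (h : Inv H W)
    {k : V ≃ₗᵢ[ℂ] V} (hk : k ∈ H) (x : V) : W.starProjection (k x) = k (W.starProjection x) :=
  Thorp.proj_comm W k.toLinearEquiv.toLinearMap (h k hk) (h.orth k hk) x

omit [FiniteDimensional ℂ V] in
lemma le_small {H : Subgroup (V ≃ₗᵢ[ℂ] V)} {U : Submodule ℂ V} {Y : ℕ} (h : Inv H U)
    (hY : finrank ℂ U ≤ Y) : U ≤ Small H Y := le_sSup ⟨h, hY⟩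

omit [FiniteDimensional ℂ V] in
lemma small_mono (H : Subgroup (V ≃ₗᵢ[ℂ] V)) {Y Y' : ℕ} (h : Y ≤ Y') : Small H Y ≤ Small H Y' :=
  sSup_le_sSup fun _ hU => ⟨hU.1, hU.2.trans h⟩

omit [FiniteDimensional ℂ V] in
lemma inv_small (H : Subgroup (V ≃ₗᵢ[ℂ] V)) (Y : ℕ) : Inv H (Small H Y) := by
  intro k hk
  have : Small H Y ≤ (Small H Y).comap k.toLinearEquiv.toLinearMap :=
    sSup_le fun U hU x hx => le_small hU.1 hU.2 (hU.1 k hk x hx)
  exact this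

omit [FiniteDimensional ℂ V] in
lemma Inv.map {V' : Type} [NormedAddCommGroup V'] [InnerProductSpace ℂ V']
    {H : Subgroup (V ≃ₗᵢ[ℂ] V)} {H' : Subgroup (V' ≃ₗᵢ[ℂ] V')} {U : Submodule ℂ V} (h : Inv H U)
    (S : V →ₗ[ℂ] V') (hS : ∀ k' ∈ H', ∃ k ∈ H, ∀ x, S (k x) = k' (S x)) : Inv H' (U.map S) := by
  rintro k' hk' _ ⟨x, hx, rfl⟩
  obtain ⟨k, hk, e⟩ := hS k' hk'
  exact ⟨k x, h k hk x hx, e x⟩

lemma small_map {V' : Type} [NormedAddCommGroup V'] [InnerProductSpace ℂ V']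
    (H : Subgroup (V ≃ₗᵢ[ℂ] V)) (H' : Subgroup (V' ≃ₗᵢ[ℂ] V')) (Y : ℕ)
    (S : V →ₗ[ℂ] V') (hS : ∀ k' ∈ H', ∃ k ∈ H, ∀ x, S (k x) = k' (S x)) :
    ∀ x ∈ Small H Y, S x ∈ Small H' Y := by
  have : Small H Y ≤ (Small H' Y).comap S :=
    sSup_le fun U hU x hx => le_small (hU.1.map S hS) ((Submodule.finrank_map_le S U).trans hU.2)
      (Submodule.mem_map_of_mem hx)
  exact this

lemma small_comm (H : Subgroup (V ≃ₗᵢ[ℂ] V)) (Y : ℕ)
    (S : V →ₗ[ℂ] V) (hS : ∀ k ∈ H, ∀ x, S (k x) = k (S x)) :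
    ∀ x ∈ Small H Y, S x ∈ Small H Y :=
  small_map H H Y S fun k hk => ⟨k, hk, hS k hk⟩

lemma inv_small_of_comm (H H' : Subgroup (V ≃ₗᵢ[ℂ] V)) (Y : ℕ)
    (h : ∀ k ∈ H, ∀ k' ∈ H', ∀ x, k' (k x) = k (k' x)) : Inv H' (Small H Y) :=
  fun k' hk' => small_comm H Y k'.toLinearEquiv.toLinearMap fun k hk x => h k hk k' hk' x

lemma schur {H : Subgroup (V ≃ₗᵢ[ℂ] V)} {U : Submodule ℂ V} (hU : Inv H U) (h0 : U ≠ ⊥)
    (hmin : ∀ U' ≤ U, Inv H U' → U' ≠ ⊥ → U' = U) (φ ψ : V →ₗ[ℂ] V)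
    (hφ : ∀ k ∈ H, ∀ x ∈ U, φ (k x) = k (φ x)) (hψ : ∀ k ∈ H, ∀ x ∈ U, ψ (k x) = k (ψ x)) :
    ∃ c : ℂ, ∀ x ∈ U, ∀ y ∈ U, ⟪φ x, ψ y⟫_ℂ = c * ⟪x, y⟫_ℂ := by
  set A : V →ₗ[ℂ] V := U.starProjection.toLinearMap ∘ₗ (LinearMap.adjoint φ) ∘ₗ ψ with hA
  have hAU : ∀ y, A y ∈ U := fun y => U.starProjection_apply_mem _
  have hAi : ∀ x ∈ U, ∀ y, ⟪x, A y⟫_ℂ = ⟪φ x, ψ y⟫_ℂ := by
    intro x hx y
    simp only [hA, LinearMap.comp_apply, ContinuousLinearMap.coe_coe]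
    rw [← Submodule.inner_starProjection_left_eq_right, Submodule.starProjection_eq_self_iff.2 hx,
      LinearMap.adjoint_inner_right]
  have hAc : ∀ k ∈ H, ∀ y ∈ U, A (k y) = k (A y) := by
    intro k hk y hy
    have hm : A (k y) - k (A y) ∈ U := U.sub_mem (hAU _) (hU k hk _ (hAU _))
    have : ∀ x ∈ U, ⟪x, A (k y) - k (A y)⟫_ℂ = 0 := by
      intro x hx
      rw [inner_sub_right, hAi x hx, hψ k hk y hy, inner_unitary, inner_unitary k x,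
        hAi _ (hU _ (H.inv_mem hk) x hx), hφ _ (H.inv_mem hk) x hx, sub_self]
    exact sub_eq_zero.1 (inner_self_eq_zero.1 (this _ hm))
  have : Nontrivial U := Submodule.nontrivial_iff_ne_bot.2 h0
  obtain ⟨c, hc⟩ := Module.End.exists_eigenvalue (A.restrict (p := U) (q := U) fun y _ => hAU y)
  obtain ⟨v, hv⟩ := hc.exists_hasEigenvector
  have hv1 : A v = c • (v : V) := by
    have := congrArg Subtype.val hv.apply_eq_smul
    simpa using this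
  set U' : Submodule ℂ V := U ⊓ LinearMap.ker (A - c • LinearMap.id) with hU'
  have hmem : ∀ y, y ∈ U' ↔ y ∈ U ∧ A y = c • y := by
    intro y; simp [hU', sub_eq_zero]
  have hU'U : U' = U := by
    apply hmin U' inf_le_left
    · intro k hk y hy
      rw [hmem] at hy ⊢
      exact ⟨hU k hk y hy.1, by rw [hAc k hk y hy.1, hy.2, map_smul]⟩
    · intro h
      have : (v : V) ∈ U' := (hmem _).2 ⟨v.2, hv1⟩
      rw [h, Submodule.mem_bot] at this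
      exact hv.2 (Subtype.ext this)
  refine ⟨c, fun x hx y hy => ?_⟩
  rw [← hAi x hx, ((hmem y).1 (hU'U ▸ hy)).2, inner_smul_right]

lemma exists_min_inv {H : Subgroup (V ≃ₗᵢ[ℂ] V)} {N : Submodule ℂ V} (hN : Inv H N) (h0 : N ≠ ⊥) :
    ∃ U ≤ N, Inv H U ∧ U ≠ ⊥ ∧ ∀ U' ≤ U, Inv H U' → U' ≠ ⊥ → U' = U := by
  have hex : ∃ n, ∃ U ≤ N, Inv H U ∧ U ≠ ⊥ ∧ finrank ℂ U = n := ⟨_, N, le_rfl, hN, h0, rfl⟩
  classical
  obtain ⟨U, h1, h2, h3, h4⟩ := Nat.find_spec hex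
  refine ⟨U, h1, h2, h3, fun U' a1 a2 a3 => ?_⟩
  apply Submodule.eq_of_le_of_finrank_le a1
  rw [h4]
  exact Nat.find_min' hex ⟨U', a1.trans h1, a2, a3, rfl⟩

/-- Multiplicativity of dimensions for commuting groups. -/
lemma mult {ι : Type} (H : ι → Subgroup (V ≃ₗᵢ[ℂ] V))
    (hc : ∀ i j, i ≠ j → ∀ k ∈ H i, ∀ k' ∈ H j, ∀ x, k' (k x) = k (k' x)) (a : ℕ)
    (s : Finset ι) : ∀ N : Submodule ℂ V, N ≠ ⊥ → (∀ i ∈ s, Inv (H i) N) →
      (∀ i ∈ s, ∀ U ≤ N, Inv (H i) U → U ≠ ⊥ → a ≤ finrank ℂ U) → a ^ s.card ≤ finrank ℂ N := by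
  classical
  induction s using Finset.induction_on with
  | empty =>
    intro N h0 _ _
    simp only [Finset.card_empty, pow_zero]
    exact Nat.one_le_iff_ne_zero.2 fun h => h0 (Submodule.finrank_eq_zero.1 h)
  | insert i s his ih =>
    intro N h0 hN ha
    obtain ⟨U, hUN, hU, hU0, hmin⟩ := exists_min_inv (hN i (Finset.mem_insert_self _ _)) h0
    obtain ⟨u', hu'U, hu'0⟩ := Submodule.exists_mem_ne_zero_of_ne_bot hU0
    set u : V := ((‖u'‖⁻¹ : ℝ) : ℂ) • u' with hu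
    have huU : u ∈ U := U.smul_mem _ hu'U
    have hu1 : ‖u‖ = 1 := by
      rw [hu, norm_smul, Complex.norm_real, norm_inv, norm_norm]
      exact inv_mul_cancel₀ (norm_ne_zero_iff.2 hu'0)
    set M : Submodule ℂ V :=
      { carrier := {w | ∃ φ : V →ₗ[ℂ] V, (∀ x ∈ U, φ x ∈ N) ∧
          (∀ k ∈ H i, ∀ x ∈ U, φ (k x) = k (φ x)) ∧ φ u = w}
        add_mem' := by
          rintro _ _ ⟨φ, a1, a2, rfl⟩ ⟨ψ, b1, b2, rfl⟩
          exact ⟨φ + ψ, fun x hx => N.add_mem (a1 x hx) (b1 x hx),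
            fun k hk x hx => by simp [a2 k hk x hx, b2 k hk x hx], rfl⟩
        zero_mem' := ⟨0, fun x _ => N.zero_mem, fun k _ x _ => by simp, rfl⟩
        smul_mem' := by
          rintro c _ ⟨φ, a1, a2, rfl⟩
          exact ⟨c • φ, fun x hx => N.smul_mem _ (a1 x hx),
            fun k hk x hx => by simp [a2 k hk x hx], rfl⟩ } with hM
    have hMN : M ≤ N := by
      rintro _ ⟨φ, a1, _, rfl⟩; exact a1 u huU
    have hM0 : M ≠ ⊥ := by
      intro h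
      have : u ∈ M := ⟨LinearMap.id, fun x hx => hUN hx, fun k _ x _ => rfl, rfl⟩
      rw [h, Submodule.mem_bot] at this
      rw [this, norm_zero] at hu1; exact zero_ne_one hu1
    have hMi : ∀ j ∈ s, Inv (H j) M := by
      rintro j hj k' hk' _ ⟨φ, a1, a2, rfl⟩
      have hij : i ≠ j := fun h => his (h ▸ hj)
      refine ⟨k'.toLinearEquiv.toLinearMap ∘ₗ φ,
        fun x hx => hN j (Finset.mem_insert_of_mem hj) k' hk' _ (a1 x hx), fun k hk x hx => ?_, rfl⟩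
      simp only [LinearMap.comp_apply, a2 k hk x hx]
      exact hc i j hij k hk k' hk' _
    have h1 := ih M hM0 hMi fun j hj U' hU' =>
      ha j (Finset.mem_insert_of_mem hj) U' (hU'.trans hMN)
    have h2 := ha i (Finset.mem_insert_self _ _) U hUN hU hU0
    set b := stdOrthonormalBasis ℂ U
    set w := stdOrthonormalBasis ℂ M
    choose φ hφ1 hφ2 hφ3 using fun t => (w t).2
    set v : Fin (finrank ℂ M) × Fin (finrank ℂ U) → N :=
      fun p => ⟨φ p.1 (b p.2), hφ1 p.1 _ (b p.2).2⟩ with hv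
    have hon : Orthonormal ℂ v := by
      rw [orthonormal_iff_ite]
      rintro ⟨t, r⟩ ⟨t', r'⟩
      obtain ⟨c, hc'⟩ := schur hU hU0 hmin (φ t) (φ t') (hφ2 t) (hφ2 t')
      have e1 := hc' u huU u huU
      rw [hφ3, hφ3, inner_self_eq_norm_sq_to_K, hu1] at e1
      have e2 : ⟪(w t : V), (w t' : V)⟫_ℂ = if t = t' then 1 else 0 :=
        orthonormal_iff_ite.1 w.orthonormal t t'
      have e3 : ⟪(b r : V), (b r' : V)⟫_ℂ = if r = r' then 1 else 0 :=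
        orthonormal_iff_ite.1 b.orthonormal r r'
      show ⟪φ t (b r), φ t' (b r')⟫_ℂ = _
      rw [hc' _ (b r).2 _ (b r').2, e3]
      have : c = if t = t' then 1 else 0 := by rw [← e2, e1]; simp
      rw [this]
      by_cases h1 : t = t' <;> by_cases h2 : r = r' <;> simp [h1, h2]
    have h3 := hon.linearIndependent.fintype_card_le_finrank
    simp only [Fintype.card_prod, Fintype.card_fin] at h3
    rw [Finset.card_insert_of_notMem his, pow_succ]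
    exact (Nat.mul_le_mul h1 h2).trans h3

end Crest.Agent.H5.Thorp
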