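import Crest.Agent.H5.Thorp.Grp

set_option autoImplicit false
set_option linter.unusedSectionVars false

namespace Crest.Agent.H5.Thorp

open Module Equiv
open scoped InnerProductSpace

variable {Z : Type} [Fintype Z] [DecidableEq Z] {m : ℕ} (e : Fin m × Bool ≃ Z)

/-- The transpositions of a perfect matching. -/
def tau (i : Fin m) : Perm Z := swap (e (i, false)) (e (i, true))

/-- Weight vectors. -/
def IsWt (S : Finset (Fin m)) (f : L2 (Perm Z)) : Prop :=
  ∀ i, lam (tau e i) f = (if i ∈ S then -1 else 1 : ℂ) • f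

lemma lam_mul (g h : Perm Z) (f : L2 (Perm Z)) : lam (g * h) f = lam g (lam h f) := by
  rw [map_mul]; rfl

lemma comm_of_fix (f : Perm Z) {x y : Z} (hx : f x = x) (hy : f y = y) :
    f * swap x y = swap x y * f := by
  rw [mul_swap_eq_swap_mul, hx, hy]

lemma swap_fix_tau {a b : Z} {i : Fin m} (ha : (e.symm a).1 ≠ i) (hb : (e.symm b).1 ≠ i) :
    swap a b * tau e i = tau e i * swap a b := by
  apply comm_of_fix <;> apply swap_apply_of_ne_of_ne <;> rintro rfl <;> simp at ha hb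

lemma tau_comm (i j : Fin m) : tau e i * tau e j = tau e j * tau e i := by
  by_cases h : i = j
  · rw [h]
  · exact swap_fix_tau e (by simpa using h) (by simpa using h)

lemma wt_orth {f₁ f₂ : L2 (Perm Z)} {S₁ S₂ : Finset (Fin m)} (h₁ : IsWt e S₁ f₁)
    (h₂ : IsWt e S₂ f₂) (hne : S₁ ≠ S₂) : ⟪f₁, f₂⟫_ℂ = 0 := by
  have : ∃ i, ¬ (i ∈ S₁ ↔ i ∈ S₂) := by
    by_contra h
    push Not at h
    exact hne (Finset.ext h)
  obtain ⟨i, hi⟩ := this
  have a1 := (lam (tau e i)).inner_map_map f₁ f₂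
  rw [h₁ i, h₂ i, inner_smul_left, inner_smul_right] at a1
  generalize ⟪f₁, f₂⟫_ℂ = z at a1 ⊢
  by_cases b1 : i ∈ S₁ <;> by_cases b2 : i ∈ S₂ <;> simp [b1, b2] at a1 hi <;>
    linear_combination (-1 / 2 : ℂ) * a1

lemma card_le_of_orth {V : Type} [NormedAddCommGroup V] [InnerProductSpace ℂ V]
    [FiniteDimensional ℂ V] {ι : Type} [Fintype ι] (U : Submodule ℂ V) (v : ι → V)
    (hU : ∀ i, v i ∈ U) (h0 : ∀ i, v i ≠ 0) (ho : ∀ i j, i ≠ j → ⟪v i, v j⟫_ℂ = 0) :
    Fintype.card ι ≤ finrank ℂ U := by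
  have h2 : LinearIndependent ℂ (fun i => (⟨v i, hU i⟩ : U)) :=
    linearIndependent_of_ne_zero_of_inner_eq_zero (fun i h => h0 i (congrArg Subtype.val h))
      fun i j h => ho i j h
  exact h2.fintype_card_le_finrank

lemma wt_card {U : Submodule ℂ (L2 (Perm Z))} (hU : Inv (LG (Perm Z)) U) {f : L2 (Perm Z)}
    (hf : f ∈ U) (h0 : f ≠ 0) {S : Finset (Fin m)} (hS : IsWt e S f) :
    m.choose S.card ≤ finrank ℂ U := by
  have h1 : ∀ S' : Finset (Fin m), S'.card = S.card →
      ∃ v ∈ U, v ≠ 0 ∧ IsWt e S' v := by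
    intro S' hS'
    obtain ⟨σ, hσ⟩ := Perm.exists_map_finset_eq S S' hS'.symm
    set g : Perm Z := e.permCongr (prodCongr σ (Equiv.refl Bool)) with hg
    refine ⟨lam g f, inv_LG.1 hU g f hf, fun h => h0 ?_, fun i => ?_⟩
    · simpa using h
    · obtain ⟨j, rfl⟩ := σ.surjective i
      have a1 : tau e (σ j) * g = g * tau e j := by
        rw [tau, tau, mul_swap_eq_swap_mul]; simp [hg]
      have a2 : (σ j ∈ S') ↔ j ∈ S := by rw [← hσ]; simp
      rw [← lam_mul, a1, lam_mul, hS j, map_smul]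
      simp only [a2]
  choose! v hvU hv0 hv using h1
  have h2 := card_le_of_orth U (fun S' : {S' : Finset (Fin m) // S'.card = S.card} => v S'.1)
    (fun S' => hvU _ S'.2) (fun S' => hv0 _ S'.2)
    (fun S₁ S₂ hne => wt_orth e (hv _ S₁.2) (hv _ S₂.2) fun h => hne (Subtype.ext h))
  simpa using h2

lemma refine_wt {U : Submodule ℂ (L2 (Perm Z))} (hU : Inv (LG (Perm Z)) U) {f : L2 (Perm Z)}
    (hf : f ∈ U) (h0 : f ≠ 0) (p : Fin m) :
    ∃ f' ∈ U, f' ≠ 0 ∧ (lam (tau e p) f' = f' ∨ lam (tau e p) f' = -f') ∧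
      ∀ i (c : ℂ), lam (tau e i) f = c • f → lam (tau e i) f' = c • f' := by
  by_cases h : lam (tau e p) f = f
  · exact ⟨f, hf, h0, Or.inl h, fun _ _ h => h⟩
  · refine ⟨f - lam (tau e p) f, U.sub_mem hf (inv_LG.1 hU _ f hf), sub_ne_zero.2 (Ne.symm h),
      Or.inr ?_, fun i c hi => ?_⟩
    · rw [map_sub, ← lam_mul, tau, swap_mul_self]; simp
    · rw [map_sub, ← lam_mul, tau_comm, lam_mul, hi, map_smul, smul_sub]

lemma wt_of_pm {f : L2 (Perm Z)}
    (h : ∀ i, lam (tau e i) f = f ∨ lam (tau e i) f = -f) :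
    IsWt e (Finset.univ.filter fun i => lam (tau e i) f ≠ f) f := by
  intro i
  by_cases h1 : lam (tau e i) f = f
  · simp [h1]
  · rcases h i with h2 | h2
    · exact absurd h2 h1
    · simp only [Finset.mem_filter, Finset.mem_univ, true_and, ne_eq, h1, not_false_eq_true,
        if_true]
      rw [h2]; simp

lemma exists_wt {U : Submodule ℂ (L2 (Perm Z))} (hU : Inv (LG (Perm Z)) U) (h0 : U ≠ ⊥) :
    ∃ f ∈ U, f ≠ 0 ∧ ∃ S, IsWt e S f := by
  have : ∀ s : Finset (Fin m), ∃ f ∈ U, f ≠ 0 ∧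
      ∀ i ∈ s, lam (tau e i) f = f ∨ lam (tau e i) f = -f := by
    intro s
    induction s using Finset.induction_on with
    | empty =>
      obtain ⟨f, h1, h2⟩ := Submodule.exists_mem_ne_zero_of_ne_bot h0
      exact ⟨f, h1, h2, by simp⟩
    | insert p s _ ih =>
      obtain ⟨f, h1, h2, h3⟩ := ih
      obtain ⟨f', a1, a2, a3, a4⟩ := refine_wt e hU h1 h2 p
      refine ⟨f', a1, a2, fun i hi => ?_⟩
      rcases Finset.mem_insert.1 hi with rfl | hi
      · exact a3
      · rcases h3 i hi with h | h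
        · left; simpa using a4 i 1 (by simpa using h)
        · right; simpa using a4 i (-1) (by simpa using h)
  obtain ⟨f, h1, h2, h3⟩ := this Finset.univ
  exact ⟨f, h1, h2, _, wt_of_pm e fun i => h3 i (Finset.mem_univ i)⟩

lemma raise_wt {U : Submodule ℂ (L2 (Perm Z))} (hU : Inv (LG (Perm Z)) U) {v : L2 (Perm Z)}
    (hv : v ∈ U) {S : Finset (Fin m)} (hS : IsWt e S v) {a b : Z}
    (ha : (e.symm a).1 ∉ S) (hb : (e.symm b).1 ∉ S) (hne : lam (swap a b) v ≠ v) :
    ∃ f ∈ U, f ≠ 0 ∧ ∃ S', IsWt e S' f ∧ S.card < S'.card ∧ S'.card ≤ S.card + 2 := by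
  obtain ⟨⟨p, β⟩, rfl⟩ := e.surjective a
  obtain ⟨⟨p', β'⟩, rfl⟩ := e.surjective b
  simp only [symm_apply_apply] at ha hb
  have htp : swap (e (p, β)) (e (p, !β)) = tau e p := by
    cases β
    · rfl
    · exact swap_comm _ _
  have hpp : p ≠ p' := by
    rintro rfl
    apply hne
    by_cases hβ : β' = β
    · rw [hβ, swap_self]; exact congrArg (fun k : L2 (Perm Z) ≃ₗᵢ[ℂ] L2 (Perm Z) => k v) (map_one lam)
    · have : β' = !β := by cases β <;> cases β' <;> simp at hβ ⊢
      rw [this, htp, hS p]; simp [ha]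
  set t := swap (e (p, β)) (e (p', β')) with ht
  set g := swap (e (p, !β)) (e (p', β')) with hg
  set w := lam g (v - lam t v) with hw
  have hwU : w ∈ U := inv_LG.1 hU _ _ (U.sub_mem hv (inv_LG.1 hU _ _ hv))
  have hw0 : w ≠ 0 := by
    intro h
    rw [hw, LinearIsometryEquiv.map_eq_zero_iff, sub_eq_zero] at h
    exact hne h.symm
  have h1 : lam (tau e p) w = (-1 : ℂ) • w := by
    have : tau e p * g = g * t := by
      rw [ht, mul_swap_eq_swap_mul g]
      congr 1
      rw [hg, swap_apply_right, swap_apply_of_ne_of_ne, htp]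
      · simp
      · simp [hpp]
    rw [hw, ← lam_mul, this, lam_mul, ← map_smul]
    congr 1
    rw [map_sub, ← lam_mul, ht, swap_mul_self]; simp
  have h2 : ∀ i, i ≠ p → i ≠ p' → lam (tau e i) w = (if i ∈ S then -1 else 1 : ℂ) • w := by
    intro i b1 b2
    have c1 : g * tau e i = tau e i * g :=
      swap_fix_tau e (by simpa using b1.symm) (by simpa using b2.symm)
    have c2 : t * tau e i = tau e i * t :=
      swap_fix_tau e (by simpa using b1.symm) (by simpa using b2.symm)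
    rw [hw, ← lam_mul, ← c1, lam_mul, map_sub, ← lam_mul, ← c2, lam_mul, hS i, map_smul, ← smul_sub,
      map_smul]
  obtain ⟨f, a1, a2, a3, a4⟩ := refine_wt e hU hwU hw0 p'
  refine ⟨f, a1, a2, ?_⟩
  have hp'S : p' ∉ insert p S := by simp [hb, hpp.symm]
  rcases a3 with a3 | a3
  · refine ⟨insert p S, fun i => ?_, by rw [Finset.card_insert_of_notMem ha]; omega,
      by rw [Finset.card_insert_of_notMem ha]; omega⟩
    by_cases b1 : i = p
    · subst b1; simpa using a4 i _ h1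
    · by_cases b2 : i = p'
      · subst b2; simpa [hp'S] using a3
      · simpa [b1] using a4 i _ (h2 i b1 b2)
  · refine ⟨insert p' (insert p S), fun i => ?_,
      by rw [Finset.card_insert_of_notMem hp'S, Finset.card_insert_of_notMem ha]; omega,
      by rw [Finset.card_insert_of_notMem hp'S, Finset.card_insert_of_notMem ha]⟩
    by_cases b1 : i = p
    · subst b1; simpa using a4 i _ h1
    · by_cases b2 : i = p'
      · subst b2; simpa using a3
      · simpa [b1, b2] using a4 i _ (h2 i b1 b2)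

variable (Z) in
/-- Functions depending on `k` values of the inverse permutation. -/
noncomputable def Lev (k : ℕ) : Submodule ℂ (L2 (Perm Z)) :=
  Submodule.span ℂ (Set.range fun ab : (Fin k → Z) × (Fin k → Z) =>
    (WithLp.toLp 2 fun g : Perm Z => if (fun i => g⁻¹ (ab.1 i)) = ab.2 then (1:ℂ) else 0 :
      L2 (Perm Z)))

lemma finrank_Lev (k : ℕ) : finrank ℂ (Lev Z k) ≤ Fintype.card Z ^ (2 * k) := by
  have := finrank_range_le_card (R := ℂ) fun ab : (Fin k → Z) × (Fin k → Z) =>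
    (WithLp.toLp 2 fun g : Perm Z => if (fun i => g⁻¹ (ab.1 i)) = ab.2 then (1:ℂ) else 0 :
      L2 (Perm Z))
  simp only [Fintype.card_prod, Fintype.card_fun, Fintype.card_fin] at this
  rw [two_mul, pow_add]
  exact this

lemma inv_Lev (k : ℕ) : Inv (LG (Perm Z)) (Lev Z k) := by
  rw [inv_LG]
  intro h
  have : Lev Z k ≤ (Lev Z k).comap (lam h).toLinearEquiv.toLinearMap := by
    apply Submodule.span_le.2
    rintro _ ⟨⟨a, b⟩, rfl⟩
    apply Submodule.subset_span
    refine ⟨(fun i => h (a i), b), ?_⟩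
    ext g
    show _ = lam h _ g
    rw [lam_apply]
    simp only [mul_inv_rev, inv_inv, Perm.mul_apply]
  exact this

lemma mem_Lev [Nonempty Z] (k : ℕ) (J : Finset Z) (hJ : J.card ≤ k) (v : L2 (Perm Z))
    (hv : ∀ a b, a ∉ J → b ∉ J → lam (swap a b) v = v) : v ∈ Lev Z k := by
  classical
  have h1 : ∀ g : Perm {x // x ∉ J}, lam (Perm.ofSubtype g) v = v := by
    intro g
    induction g using Perm.swap_induction_on with
    | one => simp
    | swap_mul f x y _ ih => rw [map_mul, lam_mul, ih, Perm.ofSubtype_swap_eq, hv _ _ x.2 y.2]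
  have h2 : ∀ g : Perm Z, (∀ x ∈ J, g x = x) → lam g v = v := by
    intro g hg
    have : g ∈ (Perm.ofSubtype : Perm {x // x ∉ J} →* Perm Z).range := by
      rw [Perm.mem_range_ofSubtype_iff]
      intro x hx hxJ
      exact (Perm.mem_support.1 hx) (hg x hxJ)
    obtain ⟨g', rfl⟩ := this
    exact h1 g'
  obtain ⟨emb⟩ : Nonempty (J ↪ Fin k) := Function.Embedding.nonempty_of_card_le (by simpa using hJ)
  set a : Fin k → Z := Function.extend emb Subtype.val fun _ => Classical.arbitrary Z with ha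
  have h3 : ∀ g g' : Perm Z, (fun i => g⁻¹ (a i)) = (fun i => g'⁻¹ (a i)) → v g = v g' := by
    intro g g' h
    have b1 : ∀ x ∈ J, (g * g'⁻¹) x = x := by
      intro x hx
      have := congrFun h (emb ⟨x, hx⟩)
      simp only [ha, emb.injective.extend_apply] at this
      rw [Perm.mul_apply, ← this]; simp
    have := congrArg (fun f : L2 (Perm Z) => f g) (h2 _ b1)
    simp only [lam_apply, mul_inv_rev, inv_inv, inv_mul_cancel_right] at this
    exact this.symm
  set c : (Fin k → Z) → ℂ := fun b =>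
    if h : ∃ g : Perm Z, (fun i => g⁻¹ (a i)) = b then v h.choose else 0 with hc
  have h4 : v = ∑ b, c b • (WithLp.toLp 2 fun g : Perm Z =>
      if (fun i => g⁻¹ (a i)) = b then (1:ℂ) else 0 : L2 (Perm Z)) := by
    ext g
    simp only [WithLp.ofLp_sum, WithLp.ofLp_smul, Finset.sum_apply, Pi.smul_apply, smul_eq_mul,
      mul_ite, mul_one, mul_zero, Finset.sum_ite_eq, Finset.mem_univ, if_true]
    have hex : ∃ g' : Perm Z, (fun i => g'⁻¹ (a i)) = (fun i => g⁻¹ (a i)) := ⟨g, rfl⟩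
    rw [hc]; simp only [dif_pos hex]
    exact (h3 _ _ hex.choose_spec).symm
  rw [h4]
  exact Submodule.sum_mem _ fun b _ => Submodule.smul_mem _ _ (Submodule.subset_span ⟨(a, b), rfl⟩)

lemma low_case [Nonempty Z] {Y j₀ : ℕ} (hY : ∀ j, j₀ ≤ j → j + j₀ ≤ m → Y < m.choose j)
    (hj : 2 * j₀ + 1 ≤ m) {U : Submodule ℂ (L2 (Perm Z))} (hU : Inv (LG (Perm Z)) U)
    (hd : finrank ℂ U ≤ Y) {f : L2 (Perm Z)} (hf : f ∈ U) (h0 : f ≠ 0) {S : Finset (Fin m)}
    (hS : IsWt e S f) (hlow : S.card < j₀) : ∃ v ∈ U, v ≠ 0 ∧ v ∈ Lev Z (2 * (j₀ - 1)) := by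
  classical
  set T : Finset (Finset (Fin m)) := Finset.univ.filter fun S =>
    S.card < j₀ ∧ ∃ v ∈ U, v ≠ 0 ∧ IsWt e S v with hT
  obtain ⟨S₀, hS₀, hmax⟩ := T.exists_max_image Finset.card ⟨S, by simp [hT, hlow]; exact ⟨f, hf, h0, hS⟩⟩
  obtain ⟨b1, v, b2, b3, b4⟩ := (Finset.mem_filter.1 hS₀).2
  refine ⟨v, b2, b3, mem_Lev _ ((S₀ ×ˢ Finset.univ).map e.toEmbedding) ?_ v ?_⟩
  · simp; omega
  · intro a b ha hb
    have hh : ∀ a, a ∉ (S₀ ×ˢ Finset.univ).map e.toEmbedding → (e.symm a).1 ∉ S₀ := by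
      intro a ha h; apply ha; simp [h]
    by_contra hne
    obtain ⟨f', c1, c2, S', c3, c4, c5⟩ := raise_wt e hU b2 b4 (hh a ha) (hh b hb) hne
    have d1 := wt_card e hU c1 c2 c3
    have d2 : S'.card < j₀ := by
      by_contra h
      have := hY S'.card (by omega) (by omega)
      omega
    have := hmax S' (by simp [hT, d2]; exact ⟨f', c1, c2, c3⟩)
    omega

/-- The sign as a complex number. -/
noncomputable def sg (g : Perm Z) : ℂ := ((Perm.sign g : ℤ) : ℂ)

lemma sg_mul (g h : Perm Z) : sg (g * h) = sg g * sg h := by simp [sg]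
lemma sg_inv (g : Perm Z) : sg g⁻¹ = sg g := by simp [sg]
lemma sg_sq (g : Perm Z) : sg g * sg g = 1 := by
  rw [← sg_inv g, ← sg_mul]
  rcases Int.units_eq_one_or (Perm.sign g) with h | h <;> simp [sg, h]

/-- Multiplication by the sign. -/
noncomputable def Sg : L2 (Perm Z) →ₗ[ℂ] L2 (Perm Z) where
  toFun f := WithLp.toLp 2 fun g => sg g * f g
  map_add' a b := by ext; simp [mul_add]
  map_smul' a b := by ext; simp; ring

lemma Sg_apply (f : L2 (Perm Z)) (g : Perm Z) : Sg f g = sg g * f g := rfl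

lemma Sg_Sg (f : L2 (Perm Z)) : Sg (Sg f) = f := by
  ext g; rw [Sg_apply, Sg_apply, ← mul_assoc, sg_sq, one_mul]

lemma lam_Sg (h : Perm Z) (f : L2 (Perm Z)) : lam h (Sg f) = sg h • Sg (lam h f) := by
  ext g; simp [Sg_apply, sg_mul, sg_inv, mul_assoc]

lemma Inv.sg {U : Submodule ℂ (L2 (Perm Z))} (hU : Inv (LG (Perm Z)) U) :
    Inv (LG (Perm Z)) (U.map Sg) := by
  rw [inv_LG] at hU ⊢
  rintro h _ ⟨f, hf, rfl⟩
  rw [lam_Sg]
  exact Submodule.smul_mem _ _ (Submodule.mem_map_of_mem (hU h f hf))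

include e in
lemma small_le_lev [Nonempty Z] {Y j₀ : ℕ} (hY : ∀ j, j₀ ≤ j → j + j₀ ≤ m → Y < m.choose j)
    (hj : 2 * j₀ + 1 ≤ m) :
    Small (LG (Perm Z)) Y ≤ Lev Z (2 * (j₀ - 1)) ⊔ (Lev Z (2 * (j₀ - 1))).map Sg := by
  set A := Lev Z (2 * (j₀ - 1)) ⊔ (Lev Z (2 * (j₀ - 1))).map Sg with hA
  have hAi : Inv (LG (Perm Z)) A := by
    intro k hk x hx
    obtain ⟨y, hy, z, hz, rfl⟩ := Submodule.mem_sup.1 hx
    rw [map_add]
    exact Submodule.add_mem_sup (inv_Lev _ k hk y hy) ((inv_Lev _).sg k hk z hz)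
  refine sSup_le fun U hU => ?_
  set U' := U.map (pr Aᗮ) with hU'
  have h1 : Inv (LG (Perm Z)) U' := hU.1.map _ fun k hk => ⟨k, hk, hAi.orth.proj_comm hk⟩
  have h2 : finrank ℂ U' ≤ Y := (Submodule.finrank_map_le _ _).trans hU.2
  have h3 : U' ≤ Aᗮ := by
    rintro _ ⟨x, _, rfl⟩; exact Submodule.starProjection_apply_mem _ x
  have h4 : U' = ⊥ := by
    by_contra h0
    obtain ⟨f, a1, a2, S, a3⟩ := exists_wt e h1 h0
    have a4 := wt_card e h1 a1 a2 a3
    have : ∃ v ∈ U', v ≠ 0 ∧ v ∈ A := by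
      by_cases hlow : S.card < j₀
      · obtain ⟨v, b1, b2, b3⟩ := low_case e hY hj h1 h2 a1 a2 a3 hlow
        exact ⟨v, b1, b2, Submodule.mem_sup_left b3⟩
      · have hc : Sᶜ.card < j₀ := by
          rw [Finset.card_compl, Fintype.card_fin]
          by_contra h
          have hS : S.card ≤ m := by simpa using S.card_le_univ
          have := hY S.card (by omega) (by omega)
          omega
        have hw : IsWt e Sᶜ (Sg f) := by
          intro i
          have : sg (tau e i) = -1 := by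
            rw [sg, tau, Perm.sign_swap (by simp)]; simp
          rw [lam_Sg, a3 i, map_smul, smul_smul, this]
          by_cases hi : i ∈ S <;> simp [hi]
        obtain ⟨v, ⟨u, b1, rfl⟩, b2, b3⟩ := low_case e hY hj h1.sg
          ((Submodule.finrank_map_le _ _).trans h2) (Submodule.mem_map_of_mem a1)
          (fun h => a2 (by rw [← Sg_Sg f, h, map_zero])) hw hc
        refine ⟨u, b1, fun h => b2 (by rw [h, map_zero]), Submodule.mem_sup_right ⟨_, b3, Sg_Sg u⟩⟩
    obtain ⟨v, b1, b2, b3⟩ := this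
    exact b2 (inner_self_eq_zero.1 (h3 b1 v b3))
  intro x hx
  have : pr Aᗮ x ∈ U' := Submodule.mem_map_of_mem hx
  rw [h4, Submodule.mem_bot] at this
  have := (Submodule.starProjection_apply_eq_zero_iff Aᗮ).1 this
  rwa [Submodule.orthogonal_orthogonal] at this

end Crest.Agent.H5.Thorp
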