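import Mathlib

set_option autoImplicit false
set_option linter.unusedSectionVars false

namespace Crest.Agent.H5.Thorp

open Finset
open scoped BigOperators

section markov
variable {C S : Type} [Fintype C] [Nonempty C]

/-- The Markov operator of a random map. -/
noncomputable def Kop (st : C → S → S) : (S → ℝ) →ₗ[ℝ] (S → ℝ) where
  toFun F s := 𝔼 c, F (st c s)
  map_add' F F' := by ext s; simp [expect_add_distrib]
  map_smul' a F := by ext s; simp [mul_expect]

lemma Kop_apply (st : C → S → S) (F : S → ℝ) (s : S) : Kop st F s = 𝔼 c, F (st c s) := rfl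

lemma Kpow_succ (st : C → S → S) (t : ℕ) (F : S → ℝ) :
    (Kop st ^ (t + 1)) F = (Kop st ^ t) (Kop st F) := by rw [pow_succ]; rfl

lemma Kpow_succ' (st : C → S → S) (t : ℕ) (F : S → ℝ) :
    (Kop st ^ (t + 1)) F = Kop st ((Kop st ^ t) F) := by rw [pow_succ']; rfl

lemma Kpow_add (st : C → S → S) (t t' : ℕ) (F : S → ℝ) :
    (Kop st ^ (t + t')) F = (Kop st ^ t) ((Kop st ^ t') F) := by rw [pow_add]; rfl

lemma Kpow_le (st : C → S → S) (I : S → Prop) (hI : ∀ c s, I s → I (st c s)) (t : ℕ)
    (F F' : S → ℝ) (h : ∀ s, I s → F s ≤ F' s) :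
    ∀ s, I s → (Kop st ^ t) F s ≤ (Kop st ^ t) F' s := by
  induction t with
  | zero => simpa using h
  | succ t ih =>
    intro s hs
    rw [Kpow_succ', Kpow_succ', Kop_apply, Kop_apply]
    exact expect_le_expect fun c _ => ih _ (hI c s hs)

lemma Kpow_const (st : C → S → S) (t : ℕ) (a : ℝ) :
    (Kop st ^ t) (fun _ => a) = fun _ => a := by
  induction t with
  | zero => simp
  | succ t ih =>
    rw [Kpow_succ', ih]; ext s; simp [Kop_apply]

lemma Kpow_aff (st : C → S → S) (I : S → Prop) (hI : ∀ c s, I s → I (st c s)) (t : ℕ)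
    (F F₁ F₂ : S → ℝ) (a b c : ℝ) (h : ∀ s, I s → F s ≤ a * F₁ s + b * F₂ s + c) :
    ∀ s, I s → (Kop st ^ t) F s ≤ a * (Kop st ^ t) F₁ s + b * (Kop st ^ t) F₂ s + c := by
  intro s hs
  have := Kpow_le st I hI t F (a • F₁ + b • F₂ + fun _ => c) (fun s hs => by simpa using h s hs) s hs
  rw [map_add, map_add, map_smul, map_smul, Kpow_const] at this
  simpa using this

end markov

section coins
variable {P : Type} [Fintype P] [DecidableEq P]

/-- Flip one coin. -/
def flip1 (u : P) (c : P → Bool) : P → Bool := Function.update c u (!c u)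

lemma flip1_self (u : P) (c : P → Bool) : flip1 u c u = !c u := by simp [flip1]
lemma flip1_ne {u v : P} (h : v ≠ u) (c : P → Bool) : flip1 u c v = c v := by simp [flip1, h]

lemma flip1_inv (u : P) : Function.Involutive (flip1 u) := by
  intro c; ext v
  by_cases h : v = u
  · subst h; simp [flip1]
  · simp [flip1, h]

lemma ex_flip (u : P) (F : (P → Bool) → ℝ) : 𝔼 c, F (flip1 u c) = 𝔼 c, F c :=
  Fintype.expect_bijective _ (flip1_inv u).bijective _ _ fun _ => rfl

lemma ex_half (u : P) (F : (P → Bool) → ℝ) : 𝔼 c, F c = (𝔼 c, (F c + F (flip1 u c))) / 2 := by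
  rw [expect_add_distrib, ex_flip]; ring

lemma ex_one (u : P) (φ : Bool → ℝ) : 𝔼 c : P → Bool, φ (c u) = (φ false + φ true) / 2 := by
  rw [ex_half u]
  have : ∀ c : P → Bool, φ (c u) + φ (flip1 u c u) = φ false + φ true := by
    intro c; rw [flip1_self]; cases c u <;> simp [add_comm]
  simp [this]

lemma ex_two {u v : P} (h : u ≠ v) (φ : Bool → Bool → ℝ) :
    𝔼 c : P → Bool, φ (c u) (c v) =
      (φ false false + φ true false + φ false true + φ true true) / 4 := by
  rw [ex_half u]
  have : ∀ c : P → Bool, φ (c u) (c v) + φ (flip1 u c u) (flip1 u c v) =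
      φ false (c v) + φ true (c v) := by
    intro c; rw [flip1_self, flip1_ne h.symm]; cases c u <;> simp [add_comm]
  simp only [this]
  rw [ex_one v fun b => φ false b + φ true b]; ring

lemma ex_indep (A : P → Prop) [DecidablePred A] (Φ Ψ : (P → Bool) → ℝ)
    (hΦ : ∀ c c', (∀ u, A u → c u = c' u) → Φ c = Φ c')
    (hΨ : ∀ c c', (∀ u, ¬ A u → c u = c' u) → Ψ c = Ψ c') :
    𝔼 c, Φ c * Ψ c = (𝔼 c, Φ c) * 𝔼 c, Ψ c := by
  set sw : (P → Bool) × (P → Bool) → (P → Bool) × (P → Bool) :=
    fun x => (fun u => if A u then x.1 u else x.2 u, fun u => if A u then x.2 u else x.1 u) with hsw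
  have hinv : Function.Involutive sw := by
    rintro ⟨c, c'⟩
    ext u <;> by_cases h : A u <;> simp [hsw, h]
  rw [expect_mul_expect, ← expect_product', univ_product_univ,
    Fintype.expect_bijective sw hinv.bijective (fun x => Φ x.1 * Ψ x.2) (fun x => Φ x.1 * Ψ x.1)
      fun x => by
        rw [hΦ x.1 (sw x).1 fun u hu => by simp [hsw, hu],
          hΨ x.2 (sw x).1 fun u hu => by simp [hsw, hu]],
    ← univ_product_univ, expect_product' _ _ fun x _ => Φ x * Ψ x]
  simp

lemma ex_prod (ψ : P → Bool → ℝ) :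
    𝔼 c : P → Bool, ∏ u, ψ u (c u) = ∏ u, ((ψ u false + ψ u true) / 2) := by
  rw [Fintype.expect_eq_sum_div_card, prod_div_distrib]
  have := Finset.prod_univ_sum (fun _ : P => (univ : Finset Bool)) ψ
  rw [Fintype.piFinset_univ] at this
  rw [← this]
  simp [add_comm]

end coins

end Crest.Agent.H5.Thorp
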